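import Mathlib

/-!
# The entropy photon-number inequality for mixtures of vacuum and one photon: definitions

One mode (`n = 1`).  The input states are
`ρ_A = (1 - p) |0⟩⟨0| + p |1⟩⟨1|` and `ρ_B = (1 - q) |0⟩⟨0| + q |1⟩⟨1|`,
diagonal in the Fock basis.  A beam splitter of transmissivity `η` sends
`|0⟩|0⟩` to the output photon number `0`,
`|1⟩|0⟩` to the output photon numbers `(0, 1)` with probabilities `(1 - η, η)`,
`|0⟩|1⟩` to the output photon numbers `(0, 1)` with probabilities `(η, 1 - η)`, and
`|1⟩|1⟩` to the output photon numbers `(0, 1, 2)` with the Hong-Ou-Mandel probabilities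
`(2 η (1 - η), (2 η - 1) ^ 2, 2 η (1 - η))`.
The output state `ρ_C` is diagonal in the Fock basis with eigenvalues `out0`, `out1`, `out2`.
-/

namespace Vale.Agent.Lib.P369

/-- `g t = (t + 1) log (t + 1) - t log t`, the entropy of the one-mode thermal state
with mean photon number `t`. -/
noncomputable def gfun (t : ℝ) : ℝ := (t + 1) * Real.log (t + 1) - t * Real.log t

/-- The probability of no photon in the output mode. -/
noncomputable def out0 (p q η : ℝ) : ℝ :=
  (1 - p) * (1 - q) + p * (1 - q) * (1 - η) + (1 - p) * q * η + p * q * (2 * η * (1 - η))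

/-- The probability of one photon in the output mode. -/
noncomputable def out1 (p q η : ℝ) : ℝ :=
  p * (1 - q) * η + (1 - p) * q * (1 - η) + p * q * (2 * η - 1) ^ 2

/-- The probability of two photons in the output mode. -/
noncomputable def out2 (p q η : ℝ) : ℝ := p * q * (2 * η * (1 - η))

end Vale.Agent.Lib.P369
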