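import Mathlib
import Vale.Agent.Lib.P369.Defs

/-!
# Elementary properties of the thermal entropy function
-/

namespace Vale.Agent.Lib.P369

open Real

lemma gfun_zero : gfun 0 = 0 := by simp [gfun]

lemma gfun_continuous : Continuous gfun := by
  unfold gfun
  have h1 : Continuous fun t : ℝ => (t + 1) * Real.log (t + 1) :=
    Real.continuous_mul_log.comp (continuous_id.add continuous_const)
  exact h1.sub Real.continuous_mul_log

lemma hasDerivAt_gfun {t : ℝ} (ht : 0 < t) :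
    HasDerivAt gfun (Real.log (t + 1) - Real.log t) t := by
  have h1 : HasDerivAt (fun t : ℝ => (t + 1) * Real.log (t + 1)) (Real.log (t + 1) + 1) t :=
    HasDerivAt.comp_add_const t 1 (Real.hasDerivAt_mul_log (x := t + 1) (by linarith))
  have h2 := Real.hasDerivAt_mul_log (x := t) ht.ne'
  have h3 := h1.sub h2
  have e : Real.log (t + 1) + 1 - (Real.log t + 1) = Real.log (t + 1) - Real.log t := by ring
  rw [e] at h3
  exact h3

lemma gfun_strictMonoOn : StrictMonoOn gfun (Set.Ici 0) := by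
  apply strictMonoOn_of_deriv_pos (convex_Ici 0) gfun_continuous.continuousOn
  intro t ht
  rw [interior_Ici] at ht
  rw [(hasDerivAt_gfun ht).deriv]
  have : Real.log t < Real.log (t + 1) := Real.log_lt_log ht (by linarith)
  linarith

lemma gfun_le_gfun {s t : ℝ} (hs : 0 ≤ s) (hst : s ≤ t) : gfun s ≤ gfun t :=
  gfun_strictMonoOn.monotoneOn (Set.mem_Ici.2 hs) (Set.mem_Ici.2 (hs.trans hst)) hst

lemma le_of_gfun_le {s t : ℝ} (hs : 0 ≤ s) (ht : 0 ≤ t) (h : gfun s ≤ gfun t) : s ≤ t :=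
  (gfun_strictMonoOn.le_iff_le (Set.mem_Ici.2 hs) (Set.mem_Ici.2 ht)).1 h

lemma lt_of_gfun_lt {s t : ℝ} (hs : 0 ≤ s) (ht : 0 ≤ t) (h : gfun s < gfun t) : s < t :=
  (gfun_strictMonoOn.lt_iff_lt (Set.mem_Ici.2 hs) (Set.mem_Ici.2 ht)).1 h

/-- The thermal entropy dominates the binary entropy on `[0, 1]`. -/
lemma binEntropy_le_gfun {y : ℝ} (h0 : 0 ≤ y) (h1 : y ≤ 1) : binEntropy y ≤ gfun y := by
  have hx : (1 + y) ∈ Set.Ici (0 : ℝ) := Set.mem_Ici.2 (by linarith)
  have hy : (1 - y) ∈ Set.Ici (0 : ℝ) := Set.mem_Ici.2 (by linarith)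
  have hconv := Real.convexOn_mul_log.2 hx hy (by norm_num : (0 : ℝ) ≤ 1 / 2)
    (by norm_num : (0 : ℝ) ≤ 1 / 2) (by norm_num : (1 / 2 : ℝ) + 1 / 2 = 1)
  have e : (1 / 2 : ℝ) • (1 + y) + (1 / 2 : ℝ) • (1 - y) = 1 := by
    simp only [smul_eq_mul]; ring
  rw [e] at hconv
  simp only [smul_eq_mul, Real.log_one, mul_zero] at hconv
  unfold binEntropy gfun
  rw [Real.log_inv, Real.log_inv]
  have e2 : y + 1 = 1 + y := by ring
  rw [e2]
  linarith

/-- If `g a = h p` with `a ≥ 0` and `p` in `[0, 1]` then `a ≤ p` and `a ≤ 1 - p`. -/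
lemma le_of_gfun_eq_binEntropy {a p : ℝ} (ha : 0 ≤ a) (hp0 : 0 ≤ p) (hp1 : p ≤ 1)
    (h : gfun a = binEntropy p) : a ≤ p ∧ a ≤ 1 - p := by
  constructor
  · apply le_of_gfun_le ha hp0
    rw [h]
    exact binEntropy_le_gfun hp0 hp1
  · apply le_of_gfun_le ha (by linarith)
    rw [h, ← binEntropy_one_sub]
    exact binEntropy_le_gfun (by linarith) (by linarith)

lemma log_le_half_sub_inv {y : ℝ} (hy : 1 ≤ y) : Real.log y ≤ (y - y⁻¹) / 2 := by
  have hy0 : 0 < y := by linarith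
  have h := (Real.self_le_sinh_iff (x := Real.log y)).2 (Real.log_nonneg hy)
  rw [Real.sinh_eq, Real.exp_neg, Real.exp_log hy0] at h
  exact h

/-- A lower bound for the binary entropy in terms of the thermal entropy. -/
lemma gfun_le_binEntropy_aux {x : ℝ} (h0 : 0 ≤ x) (h1 : x ≤ 1 / 2) :
    gfun (x * (1 - x)) ≤ binEntropy x := by
  rcases h0.eq_or_lt with rfl | hx
  · simp [gfun]
  have hx1 : 0 < 1 - x := by linarith
  set τ := x * (1 - x) with hτ
  have hτ0 : 0 < τ := mul_pos hx hx1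
  have hlogτ : Real.log τ = Real.log x + Real.log (1 - x) := Real.log_mul hx.ne' hx1.ne'
  have L1 : Real.log x ≤ -(Real.log 2 + 1 - 2 * x) := by
    have := Real.log_le_sub_one_of_pos (x := 2 * x) (by linarith)
    rw [Real.log_mul (by norm_num) hx.ne'] at this
    linarith
  have L2 : Real.log (1 - x) ≤ -x := by
    have := Real.log_le_sub_one_of_pos hx1
    linarith
  have L3 : (τ + 1) * Real.log (τ + 1) ≤ τ + τ ^ 2 / 2 := by
    have h := log_le_half_sub_inv (y := τ + 1) (by linarith)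
    have hpos : 0 < τ + 1 := by linarith
    calc (τ + 1) * Real.log (τ + 1) ≤ (τ + 1) * ((τ + 1 - (τ + 1)⁻¹) / 2) :=
          mul_le_mul_of_nonneg_left h hpos.le
      _ = τ + τ ^ 2 / 2 := by
          field_simp
          ring
  have hlog2 : (0.6931471803 : ℝ) < Real.log 2 := Real.log_two_gt_d9
  unfold binEntropy gfun
  rw [Real.log_inv, Real.log_inv, hlogτ]
  have e1 : x ^ 2 * Real.log x ≤ x ^ 2 * (-(Real.log 2 + 1 - 2 * x)) :=
    mul_le_mul_of_nonneg_left L1 (sq_nonneg x)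
  have e2 : (1 - x) ^ 2 * Real.log (1 - x) ≤ (1 - x) ^ 2 * (-x) :=
    mul_le_mul_of_nonneg_left L2 (sq_nonneg _)
  have e3 : 0 ≤ x ^ 2 * (Real.log 2 - 1 / 2 - x ^ 2 / 2) := by
    apply mul_nonneg (sq_nonneg x)
    nlinarith
  have hτ' : τ = x * (1 - x) := hτ
  nlinarith [e1, e2, e3, L3]

end Vale.Agent.Lib.P369
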