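import Mathlib
import Vale.Agent.Lib.P369.GFun

/-!
# Concavity of the map taking a Bernoulli parameter to the photon number of equal entropy

If `g a = h p` and `g b = h q` then `g (l a + (1 - l) b) ≤ h (l p + (1 - l) q)`.
-/

namespace Vale.Agent.Lib.P369

open Real Set Filter Topology

/-- The difference of the two entropies along a chord. -/
noncomputable def chordD (p q a b : ℝ) (l : ℝ) : ℝ :=
  binEntropy (q + l * (p - q)) - gfun (b + l * (a - b))

/-- The derivative of `chordD`. -/
noncomputable def chordD1 (p q a b : ℝ) (l : ℝ) : ℝ :=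
  (p - q) * (Real.log (1 - (q + l * (p - q))) - Real.log (q + l * (p - q))) -
    (a - b) * (Real.log (b + l * (a - b) + 1) - Real.log (b + l * (a - b)))

lemma chordD_continuous (p q a b : ℝ) : Continuous (chordD p q a b) := by
  unfold chordD
  have c1 : Continuous fun l : ℝ => q + l * (p - q) := by fun_prop
  have c2 : Continuous fun l : ℝ => b + l * (a - b) := by fun_prop
  exact (binEntropy_continuous.comp c1).sub (gfun_continuous.comp c2)

lemma hasDerivAt_affine (q d l : ℝ) : HasDerivAt (fun l : ℝ => q + l * d) d l := by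
  have h := ((hasDerivAt_id l).mul_const d).const_add q
  simpa using h

lemma hasDerivAt_chordD {p q a b l : ℝ} (hx0 : 0 < q + l * (p - q)) (hx1 : q + l * (p - q) < 1)
    (ht : 0 < b + l * (a - b)) : HasDerivAt (chordD p q a b) (chordD1 p q a b l) l := by
  have h1 := (hasDerivAt_binEntropy hx0.ne' hx1.ne).comp l (hasDerivAt_affine q (p - q) l)
  have h2 := (hasDerivAt_gfun ht).comp l (hasDerivAt_affine b (a - b) l)
  have h3 := h1.sub h2
  refine h3.congr_deriv ?_
  unfold chordD1
  ring

lemma hasDerivAt_chordD1 {p q a b l : ℝ} (hx0 : 0 < q + l * (p - q)) (hx1 : q + l * (p - q) < 1)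
    (ht : 0 < b + l * (a - b)) :
    HasDerivAt (chordD1 p q a b)
      ((p - q) * (-(p - q) / (1 - (q + l * (p - q))) - (p - q) / (q + l * (p - q))) -
        (a - b) * ((a - b) / (b + l * (a - b) + 1) - (a - b) / (b + l * (a - b)))) l := by
  have hx := hasDerivAt_affine q (p - q) l
  have htt := hasDerivAt_affine b (a - b) l
  have d1 : HasDerivAt (fun l : ℝ => Real.log (1 - (q + l * (p - q))))
      (-(p - q) / (1 - (q + l * (p - q)))) l :=
    (hx.const_sub 1).log (by linarith)
  have d2 : HasDerivAt (fun l : ℝ => Real.log (q + l * (p - q)))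
      ((p - q) / (q + l * (p - q))) l := hx.log hx0.ne'
  have d3 : HasDerivAt (fun l : ℝ => Real.log (b + l * (a - b) + 1))
      ((a - b) / (b + l * (a - b) + 1)) l := (htt.add_const 1).log (by linarith)
  have d4 : HasDerivAt (fun l : ℝ => Real.log (b + l * (a - b)))
      ((a - b) / (b + l * (a - b))) l := htt.log ht.ne'
  exact ((d1.sub d2).const_mul (p - q)).sub ((d3.sub d4).const_mul (a - b))

/-- The key inequality at an interior critical point. -/
lemma second_deriv_neg {P A x t θ φ : ℝ} (hP : P ≠ 0) (hx0 : 0 < x) (hx1 : x < 1)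
    (ht : 0 < t) (hXT : x * (1 - x) < t) (hθ1 : θ < φ) (hθ2 : -φ < θ) (hcrit : P * θ - A * φ = 0) :
    P * (-P / (1 - x) - P / x) - A * (A / (t + 1) - A / t) < 0 := by
  have hφ : 0 < φ := by linarith
  have hX : 0 < x * (1 - x) := mul_pos hx0 (by linarith)
  have hT : 0 < t * (t + 1) := mul_pos ht (by linarith)
  have hXT' : x * (1 - x) < t * (t + 1) := by nlinarith
  have h1x : (1 - x) ≠ 0 := by linarith
  have ht1 : t + 1 ≠ 0 := by linarith
  have hS : P * (-P / (1 - x) - P / x) - A * (A / (t + 1) - A / t) =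
      (A ^ 2 * (x * (1 - x)) - P ^ 2 * (t * (t + 1))) / ((x * (1 - x)) * (t * (t + 1))) := by
    field_simp
    ring
  rw [hS]
  apply div_neg_of_neg_of_pos _ (mul_pos hX hT)
  have hθφ : θ ^ 2 < φ ^ 2 := by nlinarith
  have h2 : θ ^ 2 * (x * (1 - x)) < φ ^ 2 * (t * (t + 1)) := by
    calc θ ^ 2 * (x * (1 - x)) ≤ φ ^ 2 * (x * (1 - x)) :=
          mul_le_mul_of_nonneg_right hθφ.le hX.le
      _ < φ ^ 2 * (t * (t + 1)) := mul_lt_mul_of_pos_left hXT' (by positivity)
  have hAφ : A * φ = P * θ := by linarith
  have h3 : φ ^ 2 * (A ^ 2 * (x * (1 - x)) - P ^ 2 * (t * (t + 1))) =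
      P ^ 2 * (θ ^ 2 * (x * (1 - x)) - φ ^ 2 * (t * (t + 1))) := by
    have e : A ^ 2 * φ ^ 2 = P ^ 2 * θ ^ 2 := by
      calc A ^ 2 * φ ^ 2 = (A * φ) ^ 2 := by ring
        _ = (P * θ) ^ 2 := by rw [hAφ]
        _ = P ^ 2 * θ ^ 2 := by ring
    linear_combination (x * (1 - x)) * e
  have hP2 : 0 < P ^ 2 := by positivity
  have h4 : φ ^ 2 * (A ^ 2 * (x * (1 - x)) - P ^ 2 * (t * (t + 1))) < 0 := by
    rw [h3]
    exact mul_neg_of_pos_of_neg hP2 (by linarith)
  by_contra hc
  push Not at hc
  have := mul_nonneg (sq_nonneg φ) hc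
  linarith

/-- Concavity: if `g a = h p` and `g b = h q`, then along the chord the thermal entropy stays
below the binary entropy. -/
theorem gfun_chord_le {p q a b l : ℝ} (hp0 : 0 ≤ p) (hp1 : p ≤ 1) (hq0 : 0 ≤ q) (hq1 : q ≤ 1)
    (ha : 0 ≤ a) (hb : 0 ≤ b) (hA : gfun a = binEntropy p) (hB : gfun b = binEntropy q)
    (hl0 : 0 ≤ l) (hl1 : l ≤ 1) :
    gfun (b + l * (a - b)) ≤ binEntropy (q + l * (p - q)) := by
  by_cases hpq : p = q
  · subst hpq
    have hab : a = b :=
      le_antisymm (le_of_gfun_le ha hb (by rw [hA, hB])) (le_of_gfun_le hb ha (by rw [hA, hB]))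
    subst hab
    simp [hA]
  · have hcont : ContinuousOn (chordD p q a b) (Icc 0 1) := (chordD_continuous p q a b).continuousOn
    obtain ⟨m, hm, hmin⟩ := isCompact_Icc.exists_isMinOn (nonempty_Icc.2 zero_le_one) hcont
    suffices h : 0 ≤ chordD p q a b m by
      have h' : chordD p q a b m ≤ chordD p q a b l := hmin (mem_Icc.2 ⟨hl0, hl1⟩)
      have h'' : 0 ≤ chordD p q a b l := h.trans h'
      unfold chordD at h''
      linarith
    by_contra hneg
    push Not at hneg
    have hD0 : chordD p q a b 0 = 0 := by simp [chordD, hB]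
    have hD1 : chordD p q a b 1 = 0 := by simp [chordD, hA]
    have hm0 : 0 < m := by
      rcases hm.1.eq_or_lt with h | h
      · rw [← h, hD0] at hneg
        exact absurd hneg (lt_irrefl 0)
      · exact h
    have hm1 : m < 1 := by
      rcases hm.2.eq_or_lt with h | h
      · rw [h, hD1] at hneg
        exact absurd hneg (lt_irrefl 0)
      · exact h
    have hx0 : 0 < q + m * (p - q) := by
      rcases lt_or_gt_of_ne hpq with h | h
      · nlinarith
      · nlinarith
    have hx1 : q + m * (p - q) < 1 := by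
      rcases lt_or_gt_of_ne hpq with h | h
      · nlinarith
      · nlinarith
    obtain ⟨hap, hap'⟩ := le_of_gfun_eq_binEntropy ha hp0 hp1 hA
    obtain ⟨hbq, hbq'⟩ := le_of_gfun_eq_binEntropy hb hq0 hq1 hB
    have ht_nonneg : 0 ≤ b + m * (a - b) := by nlinarith
    have htx : b + m * (a - b) ≤ q + m * (p - q) := by nlinarith
    have htx' : b + m * (a - b) ≤ 1 - (q + m * (p - q)) := by nlinarith
    have hgt : binEntropy (q + m * (p - q)) < gfun (b + m * (a - b)) := by
      unfold chordD at hneg
      linarith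
    have htlow : (q + m * (p - q)) * (1 - (q + m * (p - q))) < b + m * (a - b) := by
      by_contra hcon
      push Not at hcon
      have h1 := gfun_le_gfun ht_nonneg hcon
      have h2 : gfun ((q + m * (p - q)) * (1 - (q + m * (p - q)))) ≤
          binEntropy (q + m * (p - q)) := by
        rcases le_total (q + m * (p - q)) (1 / 2) with h | h
        · exact gfun_le_binEntropy_aux hx0.le h
        · have h3 := gfun_le_binEntropy_aux (x := 1 - (q + m * (p - q))) (by linarith) (by linarith)
          rw [binEntropy_one_sub] at h3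
          have e : (1 - (q + m * (p - q))) * (1 - (1 - (q + m * (p - q)))) =
              (q + m * (p - q)) * (1 - (q + m * (p - q))) := by ring
          rw [e] at h3
          exact h3
      linarith
    have htpos : 0 < b + m * (a - b) :=
      lt_of_le_of_lt (mul_nonneg hx0.le (by linarith)) htlow
    -- derivatives near `m`
    have hev : ∀ᶠ l in 𝓝 m, 0 < q + l * (p - q) ∧ q + l * (p - q) < 1 ∧ 0 < b + l * (a - b) := by
      have c1 : Continuous fun l : ℝ => q + l * (p - q) := by fun_prop
      have c2 : Continuous fun l : ℝ => b + l * (a - b) := by fun_prop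
      have e1 := (c1.continuousAt (x := m)).eventually (lt_mem_nhds hx0)
      have e2 := (c1.continuousAt (x := m)).eventually (gt_mem_nhds hx1)
      have e3 := (c2.continuousAt (x := m)).eventually (lt_mem_nhds htpos)
      filter_upwards [e1, e2, e3] with l h1 h2 h3 using ⟨h1, h2, h3⟩
    have hderiv : deriv (chordD p q a b) =ᶠ[𝓝 m] chordD1 p q a b :=
      hev.mono fun l hl => (hasDerivAt_chordD hl.1 hl.2.1 hl.2.2).deriv
    have hDm := hasDerivAt_chordD (p := p) (a := a) hx0 hx1 htpos
    have hlocmin : IsLocalMin (chordD p q a b) m := hmin.isLocalMin (Icc_mem_nhds hm0 hm1)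
    have hcrit : chordD1 p q a b m = 0 := by
      have h := hlocmin.deriv_eq_zero
      rw [hDm.deriv] at h
      exact h
    have hdd : deriv (deriv (chordD p q a b)) m =
        (p - q) * (-(p - q) / (1 - (q + m * (p - q))) - (p - q) / (q + m * (p - q))) -
        (a - b) * ((a - b) / (b + m * (a - b) + 1) - (a - b) / (b + m * (a - b))) := by
      rw [hderiv.deriv_eq]
      exact (hasDerivAt_chordD1 hx0 hx1 htpos).deriv
    have hlogs1 : Real.log (1 - (q + m * (p - q))) - Real.log (q + m * (p - q)) <
        Real.log (b + m * (a - b) + 1) - Real.log (b + m * (a - b)) := by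
      have h1x : 0 < 1 - (q + m * (p - q)) := by linarith
      have h := Real.log_lt_log (mul_pos h1x htpos)
        (show (1 - (q + m * (p - q))) * (b + m * (a - b)) <
          (q + m * (p - q)) * (b + m * (a - b) + 1) by nlinarith [mul_pos hx0 htpos])
      rw [Real.log_mul h1x.ne' htpos.ne', Real.log_mul hx0.ne' (by linarith)] at h
      linarith
    have hlogs2 : -(Real.log (b + m * (a - b) + 1) - Real.log (b + m * (a - b))) <
        Real.log (1 - (q + m * (p - q))) - Real.log (q + m * (p - q)) := by
      have h1x : 0 < 1 - (q + m * (p - q)) := by linarith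
      have h := Real.log_lt_log (mul_pos htpos hx0)
        (show (b + m * (a - b)) * (q + m * (p - q)) <
          (b + m * (a - b) + 1) * (1 - (q + m * (p - q))) by nlinarith [mul_pos hx0 h1x])
      rw [Real.log_mul htpos.ne' hx0.ne', Real.log_mul (by linarith) h1x.ne'] at h
      linarith
    have hneg2 := second_deriv_neg (P := p - q) (A := a - b) (sub_ne_zero.2 hpq) hx0 hx1 htpos
      htlow hlogs1 hlogs2 (by unfold chordD1 at hcrit; exact hcrit)
    have hlocmax : IsLocalMax (chordD p q a b) m :=
      isLocalMax_of_deriv_deriv_neg (by rw [hdd]; exact hneg2) (by rw [hDm.deriv]; exact hcrit)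
        hDm.continuousAt
    have hconst : ∀ᶠ l in 𝓝 m, chordD p q a b l = chordD p q a b m := by
      filter_upwards [hlocmin, hlocmax] with l h1 h2 using le_antisymm h2 h1
    have hd0 : deriv (chordD p q a b) =ᶠ[𝓝 m] fun _ => (0 : ℝ) := by
      filter_upwards [hconst.eventually_nhds] with l hl
      have h : chordD p q a b =ᶠ[𝓝 l] fun _ => chordD p q a b m := hl
      rw [h.deriv_eq]
      simp
    have hdd0 : deriv (deriv (chordD p q a b)) m = 0 := by
      rw [hd0.deriv_eq]
      simp
    rw [hdd] at hdd0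
    linarith

end Vale.Agent.Lib.P369
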