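import Mathlib
import Vale.Agent.Lib.P369.GFun

/-!
# The inverse of the thermal entropy function
-/

namespace Vale.Agent.Lib.P369

open Real Set Filter Topology

/-- The difference `log (t + 1) - log t`, the derivative of the thermal entropy. -/
noncomputable def phi (t : ℝ) : ℝ := Real.log (t + 1) - Real.log t

lemma phi_pos {t : ℝ} (ht : 0 < t) : 0 < phi t := by
  unfold phi
  have : Real.log t < Real.log (t + 1) := Real.log_lt_log ht (by linarith)
  linarith

lemma hasDerivAt_gfun' {t : ℝ} (ht : 0 < t) : HasDerivAt gfun (phi t) t := hasDerivAt_gfun ht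

lemma gfun_nonneg {t : ℝ} (ht : 0 ≤ t) : 0 ≤ gfun t := by
  have := gfun_le_gfun le_rfl ht
  rwa [gfun_zero] at this

/-- An extension of the thermal entropy to a strictly increasing bijection of the real line. -/
noncomputable def gext (t : ℝ) : ℝ := if 0 ≤ t then gfun t else t

lemma gext_of_nonneg {t : ℝ} (ht : 0 ≤ t) : gext t = gfun t := if_pos ht

lemma gext_of_neg {t : ℝ} (ht : t < 0) : gext t = t := if_neg (not_le.2 ht)

lemma gext_strictMono : StrictMono gext := by
  intro s t hst
  rcases le_or_gt 0 s with hs | hs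
  · have ht : 0 ≤ t := hs.trans hst.le
    rw [gext_of_nonneg hs, gext_of_nonneg ht]
    exact gfun_strictMonoOn (mem_Ici.2 hs) (mem_Ici.2 ht) hst
  · rcases le_or_gt 0 t with ht | ht
    · rw [gext_of_neg hs, gext_of_nonneg ht]
      exact lt_of_lt_of_le hs (gfun_nonneg ht)
    · rw [gext_of_neg hs, gext_of_neg ht]
      exact hst

lemma log_le_gfun {t : ℝ} (ht : 0 < t) : Real.log t ≤ gfun t := by
  unfold gfun
  have h1 : Real.log t ≤ Real.log (t + 1) := Real.log_le_log ht (by linarith)
  nlinarith

lemma gext_surjective : Function.Surjective gext := by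
  intro y
  rcases lt_or_ge y 0 with hy | hy
  · exact ⟨y, gext_of_neg hy⟩
  · have hT : (0 : ℝ) < Real.exp y := Real.exp_pos y
    have hcont : ContinuousOn gfun (Icc 0 (Real.exp y)) := gfun_continuous.continuousOn
    have hmem : y ∈ Icc (gfun 0) (gfun (Real.exp y)) := by
      rw [gfun_zero]
      refine ⟨hy, ?_⟩
      have := log_le_gfun hT
      rwa [Real.log_exp] at this
    obtain ⟨t, ht, hty⟩ := intermediate_value_Icc hT.le hcont hmem
    exact ⟨t, by rw [gext_of_nonneg ht.1, hty]⟩

/-- The inverse function of the thermal entropy (extended to the real line). -/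
noncomputable def Ginv (y : ℝ) : ℝ :=
  (StrictMono.orderIsoOfSurjective gext gext_strictMono gext_surjective).symm y

lemma gext_Ginv (y : ℝ) : gext (Ginv y) = y :=
  StrictMono.orderIsoOfSurjective_self_symm_apply gext gext_strictMono gext_surjective y

lemma Ginv_gext (t : ℝ) : Ginv (gext t) = t :=
  StrictMono.orderIsoOfSurjective_symm_apply_self gext gext_strictMono gext_surjective t

lemma Ginv_strictMono : StrictMono Ginv :=
  (StrictMono.orderIsoOfSurjective gext gext_strictMono gext_surjective).symm.strictMono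

lemma Ginv_continuous : Continuous Ginv :=
  (StrictMono.orderIsoOfSurjective gext gext_strictMono gext_surjective).symm.continuous

lemma Ginv_zero : Ginv 0 = 0 := by
  have h : gext 0 = 0 := by rw [gext_of_nonneg le_rfl, gfun_zero]
  have := Ginv_gext 0
  rwa [h] at this

lemma Ginv_nonneg {y : ℝ} (hy : 0 ≤ y) : 0 ≤ Ginv y := by
  have := Ginv_strictMono.monotone hy
  rwa [Ginv_zero] at this

lemma Ginv_pos {y : ℝ} (hy : 0 < y) : 0 < Ginv y := by
  have := Ginv_strictMono hy
  rwa [Ginv_zero] at this

lemma gfun_Ginv {y : ℝ} (hy : 0 ≤ y) : gfun (Ginv y) = y := by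
  have := gext_Ginv y
  rwa [gext_of_nonneg (Ginv_nonneg hy)] at this

lemma Ginv_gfun {t : ℝ} (ht : 0 ≤ t) : Ginv (gfun t) = t := by
  have := Ginv_gext t
  rwa [gext_of_nonneg ht] at this

lemma hasDerivAt_Ginv {y : ℝ} (hy : 0 < y) : HasDerivAt Ginv (phi (Ginv y))⁻¹ y := by
  have ht := Ginv_pos hy
  refine HasDerivAt.of_local_left_inverse Ginv_continuous.continuousAt (hasDerivAt_gfun' ht)
    (phi_pos ht).ne' ?_
  filter_upwards [lt_mem_nhds hy] with z hz
  exact gfun_Ginv hz.le

end Vale.Agent.Lib.P369
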