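import Mathlib
import Vale.Agent.Lib.P369.Inverse

/-!
# Concavity of `t (t + 1) log ((t + 1) / t)`
-/

namespace Vale.Agent.Lib.P369

open Real Set Filter Topology

/-- The function `t (t + 1) (log (t + 1) - log t)`. -/
noncomputable def psi (t : ℝ) : ℝ := t * (t + 1) * phi t

/-- The derivative of `psi`. -/
noncomputable def psi1 (t : ℝ) : ℝ := (2 * t + 1) * phi t - 1

lemma hasDerivAt_phi {t : ℝ} (ht : 0 < t) : HasDerivAt phi (1 / (t + 1) - 1 / t) t := by
  have h1 : HasDerivAt (fun t : ℝ => Real.log (t + 1)) (1 / (t + 1)) t :=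
    ((hasDerivAt_id t).add_const 1).log (by simp only [id]; linarith)
  have h2 : HasDerivAt Real.log (1 / t) t := by
    simpa using Real.hasDerivAt_log ht.ne'
  exact h1.sub h2

lemma hasDerivAt_psi {t : ℝ} (ht : 0 < t) : HasDerivAt psi (psi1 t) t := by
  have h1 : HasDerivAt (fun t : ℝ => t * (t + 1)) (1 * (t + 1) + t * 1) t :=
    (hasDerivAt_id t).mul ((hasDerivAt_id t).add_const 1)
  have h2 := h1.mul (hasDerivAt_phi ht)
  refine h2.congr_deriv ?_
  unfold psi1
  have ht1 : t + 1 ≠ 0 := by linarith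
  field_simp
  ring

lemma hasDerivAt_psi1 {t : ℝ} (ht : 0 < t) :
    HasDerivAt psi1 (2 * phi t + (2 * t + 1) * (1 / (t + 1) - 1 / t)) t := by
  have h1 : HasDerivAt (fun t : ℝ => 2 * t + 1) 2 t := by
    simpa using ((hasDerivAt_id t).const_mul 2).add_const 1
  have h2 := (h1.mul (hasDerivAt_phi ht)).sub_const 1
  exact h2

lemma phi_le {t : ℝ} (ht : 0 < t) : phi t ≤ (2 * t + 1) / (2 * (t * (t + 1))) := by
  have hy : (1 : ℝ) ≤ (t + 1) / t := by
    rw [le_div_iff₀ ht]
    linarith
  have h := log_le_half_sub_inv hy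
  rw [Real.log_div (by linarith) ht.ne'] at h
  have ht1 : t + 1 ≠ 0 := by linarith
  have e : ((t + 1) / t - ((t + 1) / t)⁻¹) / 2 = (2 * t + 1) / (2 * (t * (t + 1))) := by
    field_simp
    ring
  rw [e] at h
  exact h

lemma psi_continuousOn : ContinuousOn psi (Ici 0) := by
  have h1 : ContinuousOn (fun t : ℝ => Real.log (t + 1)) (Ici 0) := by
    apply ContinuousOn.log (by fun_prop)
    intro t ht
    have : (0 : ℝ) ≤ t := ht
    linarith
  have h2 : Continuous fun t : ℝ => t * Real.log t := Real.continuous_mul_log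
  have h3 : ContinuousOn (fun t : ℝ => (t + 1) * (t * Real.log (t + 1)) - (t + 1) * (t * Real.log t))
      (Ici 0) := by
    apply ContinuousOn.sub
    · exact (continuous_id.add continuous_const).continuousOn.mul (continuousOn_id.mul h1)
    · exact ((continuous_id.add continuous_const).mul h2).continuousOn
  refine h3.congr ?_
  intro t _
  simp only [psi, phi]
  ring

lemma psi_concaveOn : ConcaveOn ℝ (Ici 0) psi := by
  apply concaveOn_of_deriv2_nonpos (convex_Ici 0) psi_continuousOn
  · rw [interior_Ici]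
    intro t ht
    exact (hasDerivAt_psi ht).differentiableAt.differentiableWithinAt
  · rw [interior_Ici]
    intro t ht
    have hev : deriv psi =ᶠ[𝓝 t] psi1 := by
      filter_upwards [lt_mem_nhds (show (0 : ℝ) < t from ht)] with s hs
      exact (hasDerivAt_psi hs).deriv
    exact ((hasDerivAt_psi1 ht).differentiableAt.congr_of_eventuallyEq hev).differentiableWithinAt
  · rw [interior_Ici]
    intro t ht
    have ht' : (0 : ℝ) < t := ht
    have hev : deriv psi =ᶠ[𝓝 t] psi1 := by
      filter_upwards [lt_mem_nhds ht'] with s hs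
      exact (hasDerivAt_psi hs).deriv
    have e : deriv^[2] psi t = deriv (deriv psi) t := rfl
    rw [e, hev.deriv_eq, (hasDerivAt_psi1 ht').deriv]
    have h := phi_le ht'
    have ht1 : t + 1 ≠ 0 := by linarith
    have e2 : (2 * t + 1) * (1 / (t + 1) - 1 / t) = -(2 * ((2 * t + 1) / (2 * (t * (t + 1))))) := by
      field_simp
      ring
    rw [e2]
    linarith

lemma psi_nonneg {t : ℝ} (ht : 0 ≤ t) : 0 ≤ psi t := by
  rcases ht.eq_or_lt with rfl | h
  · simp [psi]
  · unfold psi
    have := phi_pos h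
    positivity

lemma psi_pos {t : ℝ} (ht : 0 < t) : 0 < psi t := by
  unfold psi
  have := phi_pos ht
  positivity

lemma psi_concave_ineq {η A B : ℝ} (hη0 : 0 ≤ η) (hη1 : η ≤ 1) (hA : 0 ≤ A) (hB : 0 ≤ B) :
    η * psi A + (1 - η) * psi B ≤ psi (η * A + (1 - η) * B) := by
  have h := psi_concaveOn.2 (mem_Ici.2 hA) (mem_Ici.2 hB) hη0 (sub_nonneg.2 hη1)
    (by ring : η + (1 - η) = 1)
  simpa only [smul_eq_mul] using h

end Vale.Agent.Lib.P369
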