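import Mathlib
import Vale.Agent.Lib.P369.Psi
import Vale.Agent.Lib.P369.Concave

/-!
# Joint convexity of `(x, y) ↦ g (η g⁻¹ x + (1 - η) g⁻¹ y)`
-/

namespace Vale.Agent.Lib.P369

open Real Set Filter Topology

/-- The function `F η x y = g (η g⁻¹ x + (1 - η) g⁻¹ y)`. -/
noncomputable def Ffun (η x y : ℝ) : ℝ := gfun (η * Ginv x + (1 - η) * Ginv y)

lemma Ffun_continuous (η : ℝ) : Continuous fun z : ℝ × ℝ => Ffun η z.1 z.2 := by
  unfold Ffun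
  exact gfun_continuous.comp ((continuous_const.mul (Ginv_continuous.comp continuous_fst)).add
    (continuous_const.mul (Ginv_continuous.comp continuous_snd)))

/-- The inverse entropy along a line. -/
noncomputable def segA (x₀ ξ s : ℝ) : ℝ := Ginv (x₀ + s * ξ)

/-- The derivative of the reciprocal of `phi` along a line. -/
noncomputable def segInvD (x₀ ξ s : ℝ) : ℝ :=
  -((1 / (segA x₀ ξ s + 1) - 1 / segA x₀ ξ s) * (ξ * (phi (segA x₀ ξ s))⁻¹)) /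
    (phi (segA x₀ ξ s)) ^ 2

/-- The mixed photon number along a line. -/
noncomputable def segC (η x₀ y₀ ξ υ s : ℝ) : ℝ := η * segA x₀ ξ s + (1 - η) * segA y₀ υ s

/-- The derivative of `segC`. -/
noncomputable def segC1 (η x₀ y₀ ξ υ s : ℝ) : ℝ :=
  η * (ξ * (phi (segA x₀ ξ s))⁻¹) + (1 - η) * (υ * (phi (segA y₀ υ s))⁻¹)

/-- The second derivative of `segC`. -/
noncomputable def segC2 (η x₀ y₀ ξ υ s : ℝ) : ℝ :=
  η * (ξ * segInvD x₀ ξ s) + (1 - η) * (υ * segInvD y₀ υ s)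

/-- The function `F` along a line. -/
noncomputable def segF (η x₀ y₀ ξ υ s : ℝ) : ℝ := gfun (segC η x₀ y₀ ξ υ s)

/-- The derivative of `segF`. -/
noncomputable def segF1 (η x₀ y₀ ξ υ s : ℝ) : ℝ :=
  phi (segC η x₀ y₀ ξ υ s) * segC1 η x₀ y₀ ξ υ s

/-- The second derivative of `segF`. -/
noncomputable def segF2 (η x₀ y₀ ξ υ s : ℝ) : ℝ :=
  ((1 / (segC η x₀ y₀ ξ υ s + 1) - 1 / segC η x₀ y₀ ξ υ s) * segC1 η x₀ y₀ ξ υ s) *
      segC1 η x₀ y₀ ξ υ s + phi (segC η x₀ y₀ ξ υ s) * segC2 η x₀ y₀ ξ υ s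

lemma segA_pos {x₀ ξ s : ℝ} (h : 0 < x₀ + s * ξ) : 0 < segA x₀ ξ s := Ginv_pos h

lemma hasDerivAt_segA {x₀ ξ s : ℝ} (h : 0 < x₀ + s * ξ) :
    HasDerivAt (segA x₀ ξ) (ξ * (phi (segA x₀ ξ s))⁻¹) s := by
  have h1 := (hasDerivAt_Ginv h).comp s (hasDerivAt_affine x₀ ξ s)
  refine h1.congr_deriv ?_
  unfold segA
  ring

lemma hasDerivAt_phi_segA {x₀ ξ s : ℝ} (h : 0 < x₀ + s * ξ) :
    HasDerivAt (fun s => phi (segA x₀ ξ s))
      ((1 / (segA x₀ ξ s + 1) - 1 / segA x₀ ξ s) * (ξ * (phi (segA x₀ ξ s))⁻¹)) s :=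
  (hasDerivAt_phi (segA_pos h)).comp s (hasDerivAt_segA h)

lemma hasDerivAt_inv_phi_segA {x₀ ξ s : ℝ} (h : 0 < x₀ + s * ξ) :
    HasDerivAt (fun s => (phi (segA x₀ ξ s))⁻¹) (segInvD x₀ ξ s) s :=
  (hasDerivAt_phi_segA h).inv (phi_pos (segA_pos h)).ne'

lemma hasDerivAt_segC {η x₀ y₀ ξ υ s : ℝ} (hx : 0 < x₀ + s * ξ) (hy : 0 < y₀ + s * υ) :
    HasDerivAt (segC η x₀ y₀ ξ υ) (segC1 η x₀ y₀ ξ υ s) s :=
  ((hasDerivAt_segA hx).const_mul η).add ((hasDerivAt_segA hy).const_mul (1 - η))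

lemma hasDerivAt_segC1 {η x₀ y₀ ξ υ s : ℝ} (hx : 0 < x₀ + s * ξ) (hy : 0 < y₀ + s * υ) :
    HasDerivAt (segC1 η x₀ y₀ ξ υ) (segC2 η x₀ y₀ ξ υ s) s :=
  (((hasDerivAt_inv_phi_segA hx).const_mul ξ).const_mul η).add
    (((hasDerivAt_inv_phi_segA hy).const_mul υ).const_mul (1 - η))

lemma segC_pos {η x₀ y₀ ξ υ s : ℝ} (hη0 : 0 ≤ η) (hη1 : η ≤ 1) (hx : 0 < x₀ + s * ξ)
    (hy : 0 < y₀ + s * υ) : 0 < segC η x₀ y₀ ξ υ s := by
  have hA := segA_pos hx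
  have hB := segA_pos hy
  unfold segC
  rcases hη0.eq_or_lt with h | h
  · rw [← h]
    simpa using hB
  · have h1 : 0 < η * segA x₀ ξ s := mul_pos h hA
    have h2 : 0 ≤ (1 - η) * segA y₀ υ s := mul_nonneg (sub_nonneg.2 hη1) hB.le
    linarith

lemma hasDerivAt_segF {η x₀ y₀ ξ υ s : ℝ} (hη0 : 0 ≤ η) (hη1 : η ≤ 1) (hx : 0 < x₀ + s * ξ)
    (hy : 0 < y₀ + s * υ) : HasDerivAt (segF η x₀ y₀ ξ υ) (segF1 η x₀ y₀ ξ υ s) s :=
  (hasDerivAt_gfun' (segC_pos hη0 hη1 hx hy)).comp s (hasDerivAt_segC hx hy)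

lemma hasDerivAt_segF1 {η x₀ y₀ ξ υ s : ℝ} (hη0 : 0 ≤ η) (hη1 : η ≤ 1) (hx : 0 < x₀ + s * ξ)
    (hy : 0 < y₀ + s * υ) : HasDerivAt (segF1 η x₀ y₀ ξ υ) (segF2 η x₀ y₀ ξ υ s) s :=
  ((hasDerivAt_phi (segC_pos hη0 hη1 hx hy)).comp s (hasDerivAt_segC hx hy)).mul
    (hasDerivAt_segC1 hx hy)

/-- The algebraic heart: the second derivative is nonnegative. -/
lemma f2_nonneg {η ξ υ A B c φA φB φc : ℝ} (hη0 : 0 ≤ η) (hη1 : η ≤ 1) (hA : 0 < A) (hB : 0 < B)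
    (hc : 0 < c) (hφA : 0 < φA) (hφB : 0 < φB)
    (hconc : η * (A * (A + 1) * φA) + (1 - η) * (B * (B + 1) * φB) ≤ c * (c + 1) * φc) :
    0 ≤ ((1 / (c + 1) - 1 / c) * (η * (ξ * φA⁻¹) + (1 - η) * (υ * φB⁻¹))) *
        (η * (ξ * φA⁻¹) + (1 - η) * (υ * φB⁻¹)) +
      φc * (η * (ξ * (-((1 / (A + 1) - 1 / A) * (ξ * φA⁻¹)) / φA ^ 2)) +
        (1 - η) * (υ * (-((1 / (B + 1) - 1 / B) * (υ * φB⁻¹)) / φB ^ 2))) := by
  have hA1 : 0 < A + 1 := by linarith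
  have hB1 : 0 < B + 1 := by linarith
  have hc1 : 0 < c + 1 := by linarith
  set p := ξ * φA⁻¹ with hp
  set q := υ * φB⁻¹ with hq
  set ψA := A * (A + 1) * φA with hψA
  set ψB := B * (B + 1) * φB with hψB
  have hψA0 : 0 < ψA := by positivity
  have hψB0 : 0 < ψB := by positivity
  have e1 : (1 / (c + 1) - 1 / c) = -1 / (c * (c + 1)) := by
    field_simp
    ring
  have e2 : ξ * (-((1 / (A + 1) - 1 / A) * p) / φA ^ 2) = p ^ 2 / ψA := by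
    rw [hp, hψA]
    field_simp
    ring
  have e3 : υ * (-((1 / (B + 1) - 1 / B) * q) / φB ^ 2) = q ^ 2 / ψB := by
    rw [hq, hψB]
    field_simp
    ring
  rw [e1, e2, e3]
  set S := η * (p ^ 2 / ψA) + (1 - η) * (q ^ 2 / ψB) with hS
  have hS0 : 0 ≤ S := by
    have h1 : 0 ≤ p ^ 2 / ψA := by positivity
    have h2 : 0 ≤ q ^ 2 / ψB := by positivity
    have h3 : 0 ≤ 1 - η := sub_nonneg.2 hη1
    positivity
  have hCS : (η * p + (1 - η) * q) ^ 2 ≤ (η * ψA + (1 - η) * ψB) * S := by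
    rw [← sub_nonneg]
    have e : (η * ψA + (1 - η) * ψB) * S - (η * p + (1 - η) * q) ^ 2 =
        η * (1 - η) * (p * ψB - q * ψA) ^ 2 / (ψA * ψB) := by
      rw [hS]
      field_simp
      ring
    rw [e]
    have h3 : 0 ≤ 1 - η := sub_nonneg.2 hη1
    positivity
  have hfin : (η * p + (1 - η) * q) ^ 2 ≤ c * (c + 1) * φc * S :=
    hCS.trans (mul_le_mul_of_nonneg_right hconc hS0)
  have e4 : -1 / (c * (c + 1)) * (η * p + (1 - η) * q) * (η * p + (1 - η) * q) + φc * S =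
      (c * (c + 1) * φc * S - (η * p + (1 - η) * q) ^ 2) / (c * (c + 1)) := by
    field_simp
    ring
  rw [e4]
  apply div_nonneg (by linarith) (by positivity)

lemma segF2_nonneg {η x₀ y₀ ξ υ s : ℝ} (hη0 : 0 ≤ η) (hη1 : η ≤ 1) (hx : 0 < x₀ + s * ξ)
    (hy : 0 < y₀ + s * υ) : 0 ≤ segF2 η x₀ y₀ ξ υ s := by
  have hA := segA_pos hx
  have hB := segA_pos hy
  have hc := segC_pos (η := η) hη0 hη1 hx hy
  have hconc : η * (segA x₀ ξ s * (segA x₀ ξ s + 1) * phi (segA x₀ ξ s)) +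
      (1 - η) * (segA y₀ υ s * (segA y₀ υ s + 1) * phi (segA y₀ υ s)) ≤
      segC η x₀ y₀ ξ υ s * (segC η x₀ y₀ ξ υ s + 1) * phi (segC η x₀ y₀ ξ υ s) :=
    psi_concave_ineq hη0 hη1 hA.le hB.le
  have h := f2_nonneg (ξ := ξ) (υ := υ) (φc := phi (segC η x₀ y₀ ξ υ s)) hη0 hη1 hA hB hc
    (phi_pos hA) (phi_pos hB) hconc
  simp only [segF2, segC1, segC2, segInvD]
  exact h

lemma segF_continuous (η x₀ y₀ ξ υ : ℝ) : Continuous (segF η x₀ y₀ ξ υ) := by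
  unfold segF segC segA
  exact gfun_continuous.comp ((continuous_const.mul (Ginv_continuous.comp (by fun_prop))).add
    (continuous_const.mul (Ginv_continuous.comp (by fun_prop))))

/-- Convexity of `F` along a segment inside the open quadrant. -/
lemma segF_convexOn {η x₀ y₀ x₁ y₁ : ℝ} (hη0 : 0 ≤ η) (hη1 : η ≤ 1) (hx₀ : 0 < x₀) (hy₀ : 0 < y₀)
    (hx₁ : 0 < x₁) (hy₁ : 0 < y₁) :
    ConvexOn ℝ (Icc 0 1) (segF η x₀ y₀ (x₁ - x₀) (y₁ - y₀)) := by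
  have hpos : ∀ s ∈ Ioo (0 : ℝ) 1, 0 < x₀ + s * (x₁ - x₀) ∧ 0 < y₀ + s * (y₁ - y₀) := by
    intro s hs
    obtain ⟨hs0, hs1⟩ := hs
    constructor
    · nlinarith
    · nlinarith
  have hev : ∀ s ∈ Ioo (0 : ℝ) 1,
      deriv (segF η x₀ y₀ (x₁ - x₀) (y₁ - y₀)) =ᶠ[𝓝 s] segF1 η x₀ y₀ (x₁ - x₀) (y₁ - y₀) := by
    intro s hs
    filter_upwards [isOpen_Ioo.mem_nhds hs] with s' hs'
    exact (hasDerivAt_segF hη0 hη1 (hpos s' hs').1 (hpos s' hs').2).deriv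
  apply convexOn_of_deriv2_nonneg (convex_Icc 0 1) (segF_continuous _ _ _ _ _).continuousOn
  · rw [interior_Icc]
    intro s hs
    exact (hasDerivAt_segF hη0 hη1 (hpos s hs).1 (hpos s hs).2).differentiableAt.differentiableWithinAt
  · rw [interior_Icc]
    intro s hs
    exact ((hasDerivAt_segF1 hη0 hη1 (hpos s hs).1 (hpos s hs).2).differentiableAt.congr_of_eventuallyEq
      (hev s hs)).differentiableWithinAt
  · rw [interior_Icc]
    intro s hs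
    have e : deriv^[2] (segF η x₀ y₀ (x₁ - x₀) (y₁ - y₀)) s =
        deriv (deriv (segF η x₀ y₀ (x₁ - x₀) (y₁ - y₀))) s := rfl
    rw [e, (hev s hs).deriv_eq, (hasDerivAt_segF1 hη0 hη1 (hpos s hs).1 (hpos s hs).2).deriv]
    exact segF2_nonneg hη0 hη1 (hpos s hs).1 (hpos s hs).2

/-- The two-point convexity inequality in the open quadrant. -/
lemma Ffun_convex_open {η x₀ y₀ x₁ y₁ a b : ℝ} (hη0 : 0 ≤ η) (hη1 : η ≤ 1) (hx₀ : 0 < x₀)
    (hy₀ : 0 < y₀) (hx₁ : 0 < x₁) (hy₁ : 0 < y₁) (ha : 0 ≤ a) (hb : 0 ≤ b) (hab : a + b = 1) :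
    Ffun η (a * x₀ + b * x₁) (a * y₀ + b * y₁) ≤ a * Ffun η x₀ y₀ + b * Ffun η x₁ y₁ := by
  have h := (segF_convexOn hη0 hη1 hx₀ hy₀ hx₁ hy₁).2 (left_mem_Icc.2 zero_le_one)
    (right_mem_Icc.2 zero_le_one) ha hb hab
  simp only [smul_eq_mul, mul_zero, mul_one, zero_add] at h
  have e0 : segF η x₀ y₀ (x₁ - x₀) (y₁ - y₀) 0 = Ffun η x₀ y₀ := by
    simp [segF, segC, segA, Ffun]
  have e1 : segF η x₀ y₀ (x₁ - x₀) (y₁ - y₀) 1 = Ffun η x₁ y₁ := by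
    simp [segF, segC, segA, Ffun]
  have eb : segF η x₀ y₀ (x₁ - x₀) (y₁ - y₀) b = Ffun η (a * x₀ + b * x₁) (a * y₀ + b * y₁) := by
    have ha' : a = 1 - b := by linarith
    simp only [segF, segC, segA, Ffun]
    rw [ha']
    ring_nf
  rw [e0, e1, eb] at h
  exact h

/-- The closed quadrant. -/
def quadrant : Set (ℝ × ℝ) := {z | 0 ≤ z.1 ∧ 0 ≤ z.2}

lemma convex_quadrant : Convex ℝ quadrant := by
  intro u hu v hv a b ha hb _
  exact ⟨add_nonneg (mul_nonneg ha hu.1) (mul_nonneg hb hv.1),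
    add_nonneg (mul_nonneg ha hu.2) (mul_nonneg hb hv.2)⟩

/-- `F` is jointly convex on the closed quadrant. -/
theorem Ffun_convexOn {η : ℝ} (hη0 : 0 ≤ η) (hη1 : η ≤ 1) :
    ConvexOn ℝ quadrant (fun z : ℝ × ℝ => Ffun η z.1 z.2) := by
  refine ⟨convex_quadrant, ?_⟩
  intro u hu v hv a b ha hb hab
  simp only [Prod.fst_add, Prod.smul_fst, Prod.snd_add, Prod.smul_snd, smul_eq_mul]
  have key : ∀ X Y : ℝ, Tendsto (fun ε : ℝ => Ffun η (X + ε) (Y + ε)) (𝓝[>] 0) (𝓝 (Ffun η X Y)) := by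
    intro X Y
    have hc : Continuous fun ε : ℝ => Ffun η (X + ε) (Y + ε) := by
      unfold Ffun
      exact gfun_continuous.comp ((continuous_const.mul (Ginv_continuous.comp (by fun_prop))).add
        (continuous_const.mul (Ginv_continuous.comp (by fun_prop))))
    have h0 : Tendsto (fun ε : ℝ => Ffun η (X + ε) (Y + ε)) (𝓝 0) (𝓝 (Ffun η (X + 0) (Y + 0))) :=
      hc.tendsto 0
    rw [add_zero, add_zero] at h0
    exact tendsto_nhdsWithin_of_tendsto_nhds h0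
  have hl := key (a * u.1 + b * v.1) (a * u.2 + b * v.2)
  have hr : Tendsto (fun ε : ℝ => a * Ffun η (u.1 + ε) (u.2 + ε) + b * Ffun η (v.1 + ε) (v.2 + ε))
      (𝓝[>] 0) (𝓝 (a * Ffun η u.1 u.2 + b * Ffun η v.1 v.2)) :=
    ((key u.1 u.2).const_mul a).add ((key v.1 v.2).const_mul b)
  refine le_of_tendsto_of_tendsto hl hr ?_
  filter_upwards [self_mem_nhdsWithin] with ε hε
  have hε' : (0 : ℝ) < ε := hε
  have h := Ffun_convex_open (η := η) (x₀ := u.1 + ε) (y₀ := u.2 + ε) (x₁ := v.1 + ε)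
    (y₁ := v.2 + ε) hη0 hη1 (by linarith [hu.1]) (by linarith [hu.2]) (by linarith [hv.1])
    (by linarith [hv.2]) ha hb hab
  have e1 : a * (u.1 + ε) + b * (v.1 + ε) = a * u.1 + b * v.1 + ε := by
    have : a * ε + b * ε = ε := by rw [← add_mul, hab, one_mul]
    linarith
  have e2 : a * (u.2 + ε) + b * (v.2 + ε) = a * u.2 + b * v.2 + ε := by
    have : a * ε + b * ε = ε := by rw [← add_mul, hab, one_mul]
    linarith
  rw [e1, e2] at h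
  exact h

end Vale.Agent.Lib.P369
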