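import Mathlib
import Vale.Agent.Lib.P369.Defs

/-!
# The entropy photon-number inequality for many modes with at most one photon per mode:
definitions

There are `n` modes.  A configuration `x : Fin n → Fin 2` records the photon number (`0` or `1`)
in each mode, and stands for the product Fock state `|x 0⟩ ⊗ ⋯ ⊗ |x (n - 1)⟩`.
The input states are `ρ_A = ∑ x, P x |x⟩⟨x|` and `ρ_B = ∑ y, Q y |y⟩⟨y|` for arbitrary
probability distributions `P`, `Q` on the configurations (correlations between the modes are
allowed).  The beam splitter acts mode by mode.  For one mode with `j` photons in the first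
input and `k` photons in the second input, the output mode carries `m` photons with probability
`bsK η j k m`.  Hence `ρ_C` is diagonal in the product Fock basis, and the eigenvalue of the
configuration `z : Fin n → Fin 3` is `modeOut η n P Q z`.
-/

namespace Vale.Agent.Lib.P369

/-- `bsK η j k m` is the probability of finding `m` photons in the output mode of a beam
splitter of transmissivity `η` whose two input modes carry the Fock states `|j⟩` and `|k⟩`,
for `j, k ≤ 1`:
`(0, 0) ↦ (1, 0, 0)`, `(0, 1) ↦ (η, 1 - η, 0)`, `(1, 0) ↦ (1 - η, η, 0)` and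
`(1, 1) ↦ (2 η (1 - η), (2 η - 1) ^ 2, 2 η (1 - η))` (the Hong-Ou-Mandel probabilities). -/
noncomputable def bsK (η : ℝ) : Fin 2 → Fin 2 → Fin 3 → ℝ :=
  ![![![1, 0, 0], ![η, 1 - η, 0]],
    ![![1 - η, η, 0], ![2 * η * (1 - η), (2 * η - 1) ^ 2, 2 * η * (1 - η)]]]

/-- The eigenvalue of the output state `ρ_C` on the configuration `z` (photon numbers
`0, 1, 2` in each of the `n` output modes), for the inputs `ρ_A = ∑ x, P x |x⟩⟨x|` and
`ρ_B = ∑ y, Q y |y⟩⟨y|`. -/
noncomputable def modeOut (η : ℝ) (n : ℕ) (P Q : (Fin n → Fin 2) → ℝ) (z : Fin n → Fin 3) : ℝ :=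
  ∑ x : Fin n → Fin 2, ∑ y : Fin n → Fin 2, P x * Q y * ∏ i, bsK η (x i) (y i) (z i)

end Vale.Agent.Lib.P369
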