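import Mathlib
import Vale.Agent.Lib.P369.Defs

/-!
# The entropy photon-number inequality for one-mode inputs with at most one photon:
definitions with density matrices

One mode (`n = 1`).  The input states `ρ_A`, `ρ_B` are arbitrary density matrices on the span of
the Fock states `|0⟩`, `|1⟩`; they are given by their `2 × 2` matrices `A`, `B` in that basis
(coherences between `|0⟩` and `|1⟩` are allowed).  The beam splitter conserves the total photon
number, so on these inputs it is an isometry from `ℂ² ⊗ ℂ²` into `ℂ³ ⊗ ℂ³`, where the two output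
modes carry at most two photons each.  `bsIso η` is the matrix of this isometry in the Fock bases,
and `bsOut η A B` is the matrix of the output state `ρ_C` (the trace over the second output mode
of the joint output state) in the basis `|0⟩`, `|1⟩`, `|2⟩`.
-/

namespace Vale.Agent.Lib.P369

open scoped Kronecker

/-- `bsAmp η j k m` is the amplitude `⟨m, j + k - m| U |j, k⟩` of the beam splitter `U` of
transmissivity `η` for `j, k ≤ 1`, where `U a† U⁻¹ = √η a† - √(1 - η) b†` and
`U b† U⁻¹ = √(1 - η) a† + √η b†`: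
`U|0,0⟩ = |0,0⟩`, `U|0,1⟩ = √η |0,1⟩ + √(1 - η) |1,0⟩`, `U|1,0⟩ = -√(1 - η) |0,1⟩ + √η |1,0⟩`,
`U|1,1⟩ = -√(2η(1 - η)) |0,2⟩ + (2η - 1) |1,1⟩ + √(2η(1 - η)) |2,0⟩`. -/
noncomputable def bsAmp (η : ℝ) : Fin 2 → Fin 2 → Fin 3 → ℝ :=
  ![![![1, 0, 0], ![Real.sqrt η, Real.sqrt (1 - η), 0]],
    ![![-Real.sqrt (1 - η), Real.sqrt η, 0],
      ![-Real.sqrt (2 * η * (1 - η)), 2 * η - 1, Real.sqrt (2 * η * (1 - η))]]]

/-- The matrix of the beam splitter on inputs with at most one photon each: the column `(j, k)`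
holds the photon numbers of the two input modes and the row `(m, l)` those of the two output
modes; the entry vanishes unless `m + l = j + k`. -/
noncomputable def bsIso (η : ℝ) : Matrix (Fin 3 × Fin 3) (Fin 2 × Fin 2) ℂ :=
  fun ml jk => if (ml.1 : ℕ) + (ml.2 : ℕ) = (jk.1 : ℕ) + (jk.2 : ℕ)
    then ((bsAmp η jk.1 jk.2 ml.1 : ℝ) : ℂ) else 0

/-- The output state `ρ_C`: the joint output state `U (ρ_A ⊗ ρ_B) U†`, traced over the second
output mode. -/
noncomputable def bsOut (η : ℝ) (A B : Matrix (Fin 2) (Fin 2) ℂ) : Matrix (Fin 3) (Fin 3) ℂ :=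
  fun m m' => ∑ l : Fin 3, (bsIso η * (A ⊗ₖ B) * (bsIso η).conjTranspose) (m, l) (m', l)

/-- The von Neumann entropy `- ∑ e log e` over the eigenvalues `e` of a Hermitian matrix. -/
noncomputable def vnEntropy {n : Type} [Fintype n] [DecidableEq n] (M : Matrix n n ℂ) : ℝ :=
  if h : M.IsHermitian then ∑ i, Real.negMulLog (h.eigenvalues i) else 0

end Vale.Agent.Lib.P369
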