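import Mathlib
import Vale.Agent.Lib.P369.DefsQ
import Vale.Agent.Lib.P369.DefsN

/-!
# The entropy photon-number inequality for many modes with at most one photon per mode:
definitions with density matrices

There are `n` modes.  A configuration `x : Fin n → Fin 2` stands for the product Fock state
`|x 0⟩ ⊗ ⋯ ⊗ |x (n - 1)⟩`, so an `n`-mode state with at most one photon in each mode is a density
matrix indexed by configurations.  The beam splitter acts mode by mode: its matrix `bsIsoN η n`
is the tensor power of the one-mode matrix `bsIso η`, and `bsOutN η n A B` is the output state,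
the trace over the `n` second output modes of the joint output state; it is indexed by the
configurations `z : Fin n → Fin 3` of the first output modes.
-/

namespace Vale.Agent.Lib.P369

open scoped Kronecker

/-- The matrix of the `n`-mode beam splitter on inputs with at most one photon per mode: the
product over the modes of the one-mode matrices `bsIso η`. -/
noncomputable def bsIsoN (η : ℝ) (n : ℕ) :
    Matrix ((Fin n → Fin 3) × (Fin n → Fin 3)) ((Fin n → Fin 2) × (Fin n → Fin 2)) ℂ :=
  fun ml jk => ∏ i, bsIso η (ml.1 i, ml.2 i) (jk.1 i, jk.2 i)

/-- The `n`-mode output state: the joint output state, traced over the second output modes. -/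
noncomputable def bsOutN (η : ℝ) (n : ℕ) (A B : Matrix (Fin n → Fin 2) (Fin n → Fin 2) ℂ) :
    Matrix (Fin n → Fin 3) (Fin n → Fin 3) ℂ :=
  fun m m' => ∑ l : Fin n → Fin 3,
    (bsIsoN η n * (A ⊗ₖ B) * (bsIsoN η n).conjTranspose) (m, l) (m', l)

/-- The tensor product of `n` matrices: the entry at the configurations `x`, `x'` is the product
of the entries of the factors. -/
def tensorN {α : Type} {n : ℕ} (M : Fin n → Matrix α α ℂ) : Matrix (Fin n → α) (Fin n → α) ℂ :=
  fun x x' => ∏ i, M i (x i) (x' i)

end Vale.Agent.Lib.P369
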