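import Mathlib

/-!
# Entropy sums of finitely supported weight functions
-/

namespace Vale.Agent.Lib.P369

open Real Finset

variable {α β ι : Type*} [Fintype α] [Fintype β] [Fintype ι]

/-- The Shannon entropy sum `∑ a, - f a * log (f a)`. -/
noncomputable def Hsum (f : α → ℝ) : ℝ := ∑ a, Real.negMulLog (f a)

/-- The entropy of a weight function which need not be normalised: the total mass times the
entropy of the normalised function. -/
noncomputable def Ent (f : α → ℝ) : ℝ := Hsum f - Real.negMulLog (∑ a, f a)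

lemma Ent_smul (c : ℝ) (f : α → ℝ) : Ent (fun a => c * f a) = c * Ent f := by
  unfold Ent Hsum
  rw [← Finset.mul_sum, Real.negMulLog_mul]
  simp only [Real.negMulLog_mul]
  rw [Finset.sum_add_distrib, ← Finset.sum_mul, ← Finset.mul_sum]
  ring

lemma Ent_zero : Ent (fun _ : α => (0 : ℝ)) = 0 := by simp [Ent, Hsum]

lemma Ent_of_sum_one {f : α → ℝ} (h : ∑ a, f a = 1) : Ent f = Hsum f := by simp [Ent, h]

lemma Hsum_nonneg {f : α → ℝ} (h0 : ∀ a, 0 ≤ f a) (h1 : ∑ a, f a = 1) : 0 ≤ Hsum f := by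
  apply Finset.sum_nonneg
  intro a _
  apply Real.negMulLog_nonneg (h0 a)
  rw [← h1]
  exact Finset.single_le_sum (fun i _ => h0 i) (Finset.mem_univ a)

lemma eq_zero_of_sum_zero {f : α → ℝ} (h0 : ∀ a, 0 ≤ f a) (h : ∑ a, f a = 0) :
    f = fun _ => 0 := by
  funext a
  exact (Finset.sum_eq_zero_iff_of_nonneg (fun i _ => h0 i)).1 h a (Finset.mem_univ a)

/-- Normalising a weight function. -/
lemma Hsum_div {f : α → ℝ} {s : ℝ} (hs : ∑ a, f a = s) (hs0 : s ≠ 0) :
    Hsum (fun a => f a / s) = Ent f / s := by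
  have h1 : ∑ a, f a / s = 1 := by rw [← Finset.sum_div, hs, div_self hs0]
  rw [← Ent_of_sum_one h1]
  have e : (fun a => f a / s) = fun a => s⁻¹ * f a := by
    funext a
    rw [div_eq_inv_mul]
  rw [e, Ent_smul, div_eq_inv_mul]

lemma Ent_nonneg {f : α → ℝ} (h0 : ∀ a, 0 ≤ f a) : 0 ≤ Ent f := by
  rcases (Finset.sum_nonneg (fun a _ => h0 a) : 0 ≤ ∑ a, f a).eq_or_lt with h | h
  · rw [eq_zero_of_sum_zero h0 h.symm, Ent_zero]
  · have h1 := Hsum_div (f := f) rfl h.ne'
    have h2 : 0 ≤ Hsum (fun a => f a / ∑ b, f b) :=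
      Hsum_nonneg (fun a => div_nonneg (h0 a) h.le) (by rw [← Finset.sum_div, div_self h.ne'])
    rw [h1] at h2
    have h3 := mul_nonneg h2 h.le
    rwa [div_mul_cancel₀ _ h.ne'] at h3

/-- The chain rule for the entropy sum on a product. -/
lemma Hsum_prod (f : α × β → ℝ) :
    Hsum f = Hsum (fun a => ∑ b, f (a, b)) + ∑ a, Ent (fun b => f (a, b)) := by
  unfold Ent Hsum
  rw [Fintype.sum_prod_type, Finset.sum_sub_distrib]
  ring

/-- Superadditivity of the entropy of weight functions (concavity of the conditional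
entropy). -/
lemma Ent_sum_ge (u : ι → α → ℝ) (hu : ∀ j a, 0 ≤ u j a) :
    ∑ j, Ent (u j) ≤ Ent (fun a => ∑ j, u j a) := by
  obtain ⟨s, hs⟩ : ∃ s : ι → ℝ, ∀ j, ∑ a, u j a = s j := ⟨_, fun _ => rfl⟩
  obtain ⟨S, hS⟩ : ∃ S : ℝ, ∑ j, s j = S := ⟨_, rfl⟩
  have hs0 : ∀ j, 0 ≤ s j := fun j => by
    rw [← hs j]
    exact Finset.sum_nonneg (fun a _ => hu j a)
  have hS0 : 0 ≤ S := by
    rw [← hS]
    exact Finset.sum_nonneg (fun j _ => hs0 j)
  have hSU : ∑ a, ∑ j, u j a = S := by
    rw [Finset.sum_comm, ← hS]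
    exact Finset.sum_congr rfl (fun j _ => hs j)
  have hzero : ∀ j, s j = 0 → u j = fun _ => 0 := fun j hj =>
    eq_zero_of_sum_zero (hu j) ((hs j).trans hj)
  rcases hS0.eq_or_lt with h | h
  · have hz : ∀ j, u j = fun _ => 0 := by
      intro j
      apply hzero
      exact (Finset.sum_eq_zero_iff_of_nonneg (fun i _ => hs0 i)).1 (hS.trans h.symm) j
        (Finset.mem_univ j)
    have e1 : (fun a => ∑ j, u j a) = fun _ => (0 : ℝ) := by
      funext a
      apply Finset.sum_eq_zero
      intro j _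
      rw [hz j]
    rw [e1, Ent_zero]
    apply le_of_eq
    apply Finset.sum_eq_zero
    intro j _
    rw [hz j, Ent_zero]
  · have hJ : ∀ a, ∑ j, s j / S * Real.negMulLog (u j a / s j) ≤
        Real.negMulLog ((∑ j, u j a) / S) := by
      intro a
      have h1 := Real.concaveOn_negMulLog.le_map_sum (t := Finset.univ) (w := fun j => s j / S)
        (p := fun j => u j a / s j) (fun j _ => div_nonneg (hs0 j) h.le)
        (by rw [← Finset.sum_div, hS, div_self h.ne'])
        (fun j _ => Set.mem_Ici.2 (div_nonneg (hu j a) (hs0 j)))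
      simp only [smul_eq_mul] at h1
      have e : ∑ j, s j / S * (u j a / s j) = (∑ j, u j a) / S := by
        rw [Finset.sum_div]
        apply Finset.sum_congr rfl
        intro j _
        rcases (hs0 j).eq_or_lt with h0 | h0
        · have : u j a = 0 := by rw [hzero j h0.symm]
          rw [this]
          simp
        · field_simp
      rwa [e] at h1
    have hsum : ∑ a, ∑ j, s j / S * Real.negMulLog (u j a / s j) ≤
        ∑ a, Real.negMulLog ((∑ j, u j a) / S) := Finset.sum_le_sum (fun a _ => hJ a)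
    have hR : ∑ a, Real.negMulLog ((∑ j, u j a) / S) = Ent (fun a => ∑ j, u j a) / S :=
      Hsum_div (f := fun a => ∑ j, u j a) hSU h.ne'
    have hL : ∑ a, ∑ j, s j / S * Real.negMulLog (u j a / s j) = (∑ j, Ent (u j)) / S := by
      rw [Finset.sum_comm, Finset.sum_div]
      apply Finset.sum_congr rfl
      intro j _
      rw [← Finset.mul_sum]
      rcases (hs0 j).eq_or_lt with h0 | h0
      · rw [hzero j h0.symm, Ent_zero, ← h0]
        simp
      · have h2 : ∑ a, Real.negMulLog (u j a / s j) = Ent (u j) / s j :=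
          Hsum_div (f := u j) (hs j) h0.ne'
        rw [h2]
        field_simp
    rw [hL, hR] at hsum
    exact (div_le_div_iff_of_pos_right h).1 hsum

end Vale.Agent.Lib.P369
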