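import Mathlib
import Vale.Agent.Lib.P369.GFun

/-!
# The output entropy dominates a binary entropy
-/

namespace Vale.Agent.Lib.P369

open Real

/-- The Gibbs inequality for two-point distributions. -/
lemma binEntropy_le_cross {s w : ℝ} (hs0 : 0 < s) (hs1 : s ≤ 1) (hw0 : 0 < w) (hw1 : w < 1) :
    binEntropy s ≤ -s * Real.log w - (1 - s) * Real.log (1 - w) := by
  unfold binEntropy
  rw [Real.log_inv, Real.log_inv]
  have h1 : s * (Real.log w - Real.log s) ≤ w - s := by
    have h := Real.log_le_sub_one_of_pos (x := w / s) (div_pos hw0 hs0)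
    rw [Real.log_div hw0.ne' hs0.ne'] at h
    have h' := mul_le_mul_of_nonneg_left h hs0.le
    have e : s * (w / s - 1) = w - s := by field_simp
    linarith
  have h2 : (1 - s) * (Real.log (1 - w) - Real.log (1 - s)) ≤ s - w := by
    rcases hs1.eq_or_lt with rfl | hs1'
    · simp only [sub_self, zero_mul]
      linarith
    · have h1s : 0 < 1 - s := by linarith
      have h1w : 0 < 1 - w := by linarith
      have h := Real.log_le_sub_one_of_pos (x := (1 - w) / (1 - s)) (div_pos h1w h1s)
      rw [Real.log_div h1w.ne' h1s.ne'] at h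
      have h' := mul_le_mul_of_nonneg_left h h1s.le
      have e : (1 - s) * ((1 - w) / (1 - s) - 1) = s - w := by
        field_simp
        ring
      linarith
  nlinarith [h1, h2]

/-- The entropy of the distribution `(1 - s + 2 t, s - 4 t, 2 t)` is at least the binary
entropy of `s`, when `0 ≤ 4 t ≤ s ^ 2` and `0 ≤ s ≤ 1`. -/
lemma entropy_mix_ge {s t : ℝ} (hs0 : 0 ≤ s) (hs1 : s ≤ 1) (ht0 : 0 ≤ t) (ht : 4 * t ≤ s ^ 2) :
    binEntropy s ≤ negMulLog (1 - s + 2 * t) + negMulLog (s - 4 * t) + negMulLog (2 * t) := by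
  rcases ht0.eq_or_lt with rfl | htpos
  · rw [binEntropy_eq_negMulLog_add_negMulLog_one_sub]
    simp only [mul_zero, add_zero, sub_zero, negMulLog_zero]
    linarith
  · have hs : 0 < s := by
      rcases hs0.eq_or_lt with h | h
      · rw [← h] at ht
        norm_num at ht
        linarith
      · exact h
    have hs2 : s ^ 2 ≤ s := by nlinarith
    have hr1 : 0 ≤ s - 4 * t := by linarith
    have hw0 : 0 < s - 2 * t := by linarith
    have hw1 : s - 2 * t < 1 := by linarith
    have h1w : 0 < 1 - (s - 2 * t) := by linarith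
    have h2t : 0 < 2 * t := by linarith
    have step1 : -(s - 4 * t) * Real.log (s - 2 * t) ≤ negMulLog (s - 4 * t) := by
      rcases hr1.eq_or_lt with h | h
      · rw [← h]
        simp
      · unfold negMulLog
        have hl : Real.log (s - 4 * t) ≤ Real.log (s - 2 * t) := Real.log_le_log h (by linarith)
        nlinarith
    have hgibbs := binEntropy_le_cross hs hs1 hw0 hw1
    have hkey : Real.log (1 - (s - 2 * t)) + Real.log (2 * t) ≤ 2 * Real.log (s - 2 * t) := by
      have hle : (1 - (s - 2 * t)) * (2 * t) ≤ (s - 2 * t) ^ 2 := by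
        nlinarith [mul_nonneg (sub_nonneg.2 ht) (by linarith : (0 : ℝ) ≤ 1 + s),
          mul_nonneg (sq_nonneg s) (sub_nonneg.2 hs1)]
      have h := Real.log_le_log (mul_pos h1w h2t) hle
      rw [Real.log_mul h1w.ne' h2t.ne', Real.log_pow] at h
      push_cast at h
      exact h
    have e0 : 1 - s + 2 * t = 1 - (s - 2 * t) := by ring
    rw [e0]
    have hn1 : negMulLog (1 - (s - 2 * t)) = -(1 - (s - 2 * t)) * Real.log (1 - (s - 2 * t)) := rfl
    have hn2 : negMulLog (2 * t) = -(2 * t) * Real.log (2 * t) := rfl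
    rw [hn1, hn2]
    nlinarith [mul_nonneg h2t.le (sub_nonneg.2 hkey), step1, hgibbs]

/-- The output distribution in terms of `s = η p + (1 - η) q` and `t = p q η (1 - η)`. -/
lemma out_entropy_ge {p q η : ℝ} (hp0 : 0 ≤ p) (hp1 : p ≤ 1) (hq0 : 0 ≤ q) (hq1 : q ≤ 1)
    (hη0 : 0 ≤ η) (hη1 : η ≤ 1) :
    binEntropy (η * p + (1 - η) * q) ≤
      negMulLog (out0 p q η) + negMulLog (out1 p q η) + negMulLog (out2 p q η) := by
  have hη' : 0 ≤ 1 - η := by linarith
  have hu : 0 ≤ η * p := mul_nonneg hη0 hp0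
  have hv : 0 ≤ (1 - η) * q := mul_nonneg hη' hq0
  have hu1 : η * p ≤ η := by nlinarith
  have hv1 : (1 - η) * q ≤ 1 - η := by nlinarith
  have h := entropy_mix_ge (s := η * p + (1 - η) * q) (t := (η * p) * ((1 - η) * q))
    (by linarith) (by linarith) (mul_nonneg hu hv) (by nlinarith [sq_nonneg (η * p - (1 - η) * q)])
  have e0 : out0 p q η = 1 - (η * p + (1 - η) * q) + 2 * ((η * p) * ((1 - η) * q)) := by
    unfold out0; ring
  have e1 : out1 p q η = (η * p + (1 - η) * q) - 4 * ((η * p) * ((1 - η) * q)) := by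
    unfold out1; ring
  have e2 : out2 p q η = 2 * ((η * p) * ((1 - η) * q)) := by
    unfold out2; ring
  rw [e0, e1, e2]
  exact h

end Vale.Agent.Lib.P369
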