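import Mathlib
import Vale.Agent.Lib.P369.Mix
import Vale.Agent.Lib.P369.Concave

/-!
# The entropy photon-number inequality for mixtures of vacuum and one photon
-/

namespace Vale.Agent.Lib.P369

open Real

theorem epni_fock01 {p q η a b c : ℝ} (hp0 : 0 ≤ p) (hp1 : p ≤ 1) (hq0 : 0 ≤ q) (hq1 : q ≤ 1)
    (hη0 : 0 ≤ η) (hη1 : η ≤ 1) (ha : 0 ≤ a) (hb : 0 ≤ b) (hc : 0 ≤ c)
    (hA : gfun a = binEntropy p) (hB : gfun b = binEntropy q)
    (hC : gfun c = negMulLog (out0 p q η) + negMulLog (out1 p q η) + negMulLog (out2 p q η)) :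
    η * a + (1 - η) * b ≤ c := by
  have h1 := out_entropy_ge hp0 hp1 hq0 hq1 hη0 hη1
  have h2 := gfun_chord_le hp0 hp1 hq0 hq1 ha hb hA hB hη0 hη1
  have e1 : b + η * (a - b) = η * a + (1 - η) * b := by ring
  have e2 : q + η * (p - q) = η * p + (1 - η) * q := by ring
  rw [e1, e2] at h2
  have hnn : 0 ≤ η * a + (1 - η) * b := by
    have h3 := mul_nonneg hη0 ha
    have h4 := mul_nonneg (sub_nonneg.2 hη1) hb
    linarith
  apply le_of_gfun_le hnn hc
  rw [hC]
  exact h2.trans h1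

end Vale.Agent.Lib.P369
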