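import Mathlib
import Vale.Agent.Lib.P369.Entropy
import Vale.Agent.Lib.P369.Convex

/-!
# Tensorisation of the entropy photon-number inequality for classical mixing kernels
-/

namespace Vale.Agent.Lib.P369

open Real Finset

variable {X Y Z X₁ Y₁ Z₁ X₂ Y₂ Z₂ : Type*}
  [Fintype X] [Fintype Y] [Fintype Z]
  [Fintype X₁] [Fintype Y₁] [Fintype Z₁] [Fintype X₂] [Fintype Y₂] [Fintype Z₂]

/-- A probability distribution on a finite type. -/
def IsDist {α : Type*} [Fintype α] (P : α → ℝ) : Prop := (∀ a, 0 ≤ P a) ∧ ∑ a, P a = 1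

/-- A kernel: for each pair of inputs a probability distribution on the outputs. -/
def IsKernel (K : X → Y → Z → ℝ) : Prop := ∀ x y, IsDist (K x y)

/-- The output weights produced by a kernel from two input weight functions. -/
noncomputable def outDist (K : X → Y → Z → ℝ) (P : X → ℝ) (Q : Y → ℝ) (z : Z) : ℝ :=
  ∑ x, ∑ y, P x * Q y * K x y z

/-- The entropy photon-number inequality for a kernel, with `m` modes. -/
def EP (η : ℝ) (K : X → Y → Z → ℝ) (m : ℝ) : Prop :=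
  ∀ (P : X → ℝ) (Q : Y → ℝ), IsDist P → IsDist Q →
    m * Ffun η (Hsum P / m) (Hsum Q / m) ≤ Hsum (outDist K P Q)

/-- The product of two kernels. -/
def tensorK (K₁ : X₁ → Y₁ → Z₁ → ℝ) (K₂ : X₂ → Y₂ → Z₂ → ℝ) :
    X₁ × X₂ → Y₁ × Y₂ → Z₁ × Z₂ → ℝ :=
  fun x y z => K₁ x.1 y.1 z.1 * K₂ x.2 y.2 z.2

lemma outDist_nonneg {K : X → Y → Z → ℝ} (hK : IsKernel K) {P : X → ℝ} {Q : Y → ℝ}
    (hP : ∀ x, 0 ≤ P x) (hQ : ∀ y, 0 ≤ Q y) (z : Z) : 0 ≤ outDist K P Q z :=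
  Finset.sum_nonneg fun x _ => Finset.sum_nonneg fun y _ =>
    mul_nonneg (mul_nonneg (hP x) (hQ y)) ((hK x y).1 z)

lemma sum_outDist {K : X → Y → Z → ℝ} (hK : IsKernel K) (P : X → ℝ) (Q : Y → ℝ) :
    ∑ z, outDist K P Q z = (∑ x, P x) * ∑ y, Q y := by
  unfold outDist
  rw [Finset.sum_comm, Finset.sum_mul_sum]
  apply Finset.sum_congr rfl
  intro x _
  rw [Finset.sum_comm]
  apply Finset.sum_congr rfl
  intro y _
  rw [← Finset.mul_sum, (hK x y).2, mul_one]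

lemma outDist_isDist {K : X → Y → Z → ℝ} (hK : IsKernel K) {P : X → ℝ} {Q : Y → ℝ}
    (hP : IsDist P) (hQ : IsDist Q) : IsDist (outDist K P Q) :=
  ⟨outDist_nonneg hK hP.1 hQ.1, by rw [sum_outDist hK, hP.2, hQ.2, mul_one]⟩

omit [Fintype Z] in
lemma outDist_smul (K : X → Y → Z → ℝ) (P : X → ℝ) (Q : Y → ℝ) (c d : ℝ) (z : Z) :
    outDist K (fun x => c * P x) (fun y => d * Q y) z = c * d * outDist K P Q z := by
  unfold outDist
  rw [Finset.mul_sum]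
  apply Finset.sum_congr rfl
  intro x _
  rw [Finset.mul_sum]
  apply Finset.sum_congr rfl
  intro y _
  ring

/-- The inequality for weight functions which need not be normalised. -/
lemma EP_slice {η m : ℝ} {K : X → Y → Z → ℝ} (hK : IsKernel K) (h : EP η K m)
    {p : X → ℝ} {q : Y → ℝ} (hp : ∀ x, 0 ≤ p x) (hq : ∀ y, 0 ≤ q y) {sp sq : ℝ}
    (hsp : ∑ x, p x = sp) (hsq : ∑ y, q y = sq) :
    sp * sq * (m * Ffun η (Ent p / sp / m) (Ent q / sq / m)) ≤ Ent (outDist K p q) := by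
  have hE : 0 ≤ Ent (outDist K p q) := Ent_nonneg (outDist_nonneg hK hp hq)
  have hsp0 : 0 ≤ sp := by
    rw [← hsp]
    exact Finset.sum_nonneg fun x _ => hp x
  have hsq0 : 0 ≤ sq := by
    rw [← hsq]
    exact Finset.sum_nonneg fun y _ => hq y
  rcases hsp0.eq_or_lt with h0 | h0
  · rw [← h0]
    simpa using hE
  rcases hsq0.eq_or_lt with h1 | h1
  · rw [← h1]
    simpa using hE
  have hP : IsDist fun x => p x / sp :=
    ⟨fun x => div_nonneg (hp x) h0.le, by rw [← Finset.sum_div, hsp, div_self h0.ne']⟩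
  have hQ : IsDist fun y => q y / sq :=
    ⟨fun y => div_nonneg (hq y) h1.le, by rw [← Finset.sum_div, hsq, div_self h1.ne']⟩
  have h2 := h _ _ hP hQ
  rw [Hsum_div hsp h0.ne', Hsum_div hsq h1.ne'] at h2
  have e : outDist K p q = fun z => sp * sq * outDist K (fun x => p x / sp) (fun y => q y / sq) z := by
    funext z
    rw [← outDist_smul]
    congr 1
    · funext x
      field_simp
    · funext y
      field_simp
  rw [e, Ent_smul, Ent_of_sum_one (outDist_isDist hK hP hQ).2]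
  exact mul_le_mul_of_nonneg_left h2 (mul_nonneg h0.le h1.le)

/-- Jensen's inequality for `F` and a product distribution. -/
lemma Ffun_jensen {η : ℝ} (hη0 : 0 ≤ η) (hη1 : η ≤ 1) {ι κ : Type*} [Fintype ι] [Fintype κ]
    {w : ι → ℝ} {v : κ → ℝ} (hw : IsDist w) (hv : IsDist v) {f : ι → ℝ} {g : κ → ℝ}
    (hf : ∀ i, 0 ≤ f i) (hg : ∀ k, 0 ≤ g k) :
    Ffun η (∑ i, w i * f i) (∑ k, v k * g k) ≤ ∑ i, ∑ k, w i * v k * Ffun η (f i) (g k) := by
  have h := (Ffun_convexOn hη0 hη1).map_sum_le (t := (Finset.univ : Finset (ι × κ)))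
    (w := fun j => w j.1 * v j.2) (p := fun j => (f j.1, g j.2))
    (fun j _ => mul_nonneg (hw.1 j.1) (hv.1 j.2))
    (by rw [Fintype.sum_prod_type, ← Finset.sum_mul_sum, hw.2, hv.2, mul_one])
    (fun j _ => ⟨hf j.1, hg j.2⟩)
  simp only [Prod.fst_sum, Prod.snd_sum, Prod.smul_fst, Prod.smul_snd, smul_eq_mul] at h
  rw [Fintype.sum_prod_type, Fintype.sum_prod_type, Fintype.sum_prod_type] at h
  have e1 : ∑ x, ∑ y, w x * v y * f x = ∑ i, w i * f i := by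
    apply Finset.sum_congr rfl
    intro i _
    have : ∑ y, w i * v y * f i = w i * f i * ∑ y, v y := by
      rw [Finset.mul_sum]
      apply Finset.sum_congr rfl
      intro y _
      ring
    rw [this, hv.2, mul_one]
  have e2 : ∑ x, ∑ y, w x * v y * g y = ∑ k, v k * g k := by
    rw [Finset.sum_comm]
    apply Finset.sum_congr rfl
    intro k _
    have : ∑ x, w x * v k * g k = v k * g k * ∑ x, w x := by
      rw [Finset.mul_sum]
      apply Finset.sum_congr rfl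
      intro x _
      ring
    rw [this, hw.2, mul_one]
  rw [e1, e2] at h
  exact h

/-- Two-point convexity of `F` in perspective form. -/
lemma Ffun_two_point {η : ℝ} (hη0 : 0 ≤ η) (hη1 : η ≤ 1) {m₁ m₂ a₁ b₁ a₂ b₂ : ℝ} (hm₁ : 0 < m₁)
    (hm₂ : 0 < m₂) (ha₁ : 0 ≤ a₁) (hb₁ : 0 ≤ b₁) (ha₂ : 0 ≤ a₂) (hb₂ : 0 ≤ b₂) :
    (m₁ + m₂) * Ffun η ((a₁ + a₂) / (m₁ + m₂)) ((b₁ + b₂) / (m₁ + m₂)) ≤
      m₁ * Ffun η (a₁ / m₁) (b₁ / m₁) + m₂ * Ffun η (a₂ / m₂) (b₂ / m₂) := by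
  have hm : 0 < m₁ + m₂ := add_pos hm₁ hm₂
  have hx : ((a₁ / m₁, b₁ / m₁) : ℝ × ℝ) ∈ quadrant :=
    ⟨div_nonneg ha₁ hm₁.le, div_nonneg hb₁ hm₁.le⟩
  have hy : ((a₂ / m₂, b₂ / m₂) : ℝ × ℝ) ∈ quadrant :=
    ⟨div_nonneg ha₂ hm₂.le, div_nonneg hb₂ hm₂.le⟩
  have ha : 0 ≤ m₁ / (m₁ + m₂) := div_nonneg hm₁.le hm.le
  have hb : 0 ≤ m₂ / (m₁ + m₂) := div_nonneg hm₂.le hm.le
  have hab : m₁ / (m₁ + m₂) + m₂ / (m₁ + m₂) = 1 := by rw [← add_div, div_self hm.ne']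
  have h := (Ffun_convexOn hη0 hη1).2 hx hy ha hb hab
  simp only [Prod.fst_add, Prod.smul_fst, Prod.snd_add, Prod.smul_snd, smul_eq_mul] at h
  have e1 : m₁ / (m₁ + m₂) * (a₁ / m₁) + m₂ / (m₁ + m₂) * (a₂ / m₂) = (a₁ + a₂) / (m₁ + m₂) := by
    field_simp
  have e2 : m₁ / (m₁ + m₂) * (b₁ / m₁) + m₂ / (m₁ + m₂) * (b₂ / m₂) = (b₁ + b₂) / (m₁ + m₂) := by
    field_simp
  rw [e1, e2] at h
  have h2 := mul_le_mul_of_nonneg_left h hm.le
  have e3 : (m₁ + m₂) * (m₁ / (m₁ + m₂) * Ffun η (a₁ / m₁) (b₁ / m₁) +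
      m₂ / (m₁ + m₂) * Ffun η (a₂ / m₂) (b₂ / m₂)) =
      m₁ * Ffun η (a₁ / m₁) (b₁ / m₁) + m₂ * Ffun η (a₂ / m₂) (b₂ / m₂) := by
    field_simp
  rw [e3] at h2
  exact h2

end Vale.Agent.Lib.P369
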