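import Mathlib
import Vale.Agent.Lib.P369.Tensor

/-!
# Tensorisation of the entropy photon-number inequality: the main step
-/

namespace Vale.Agent.Lib.P369

open Real Finset

variable {X Y Z X₁ Y₁ Z₁ X₂ Y₂ Z₂ : Type*}
  [Fintype X] [Fintype Y] [Fintype Z]
  [Fintype X₁] [Fintype Y₁] [Fintype Z₁] [Fintype X₂] [Fintype Y₂] [Fintype Z₂]

/-- The sum of the slice entropies, weighted, in terms of the chain rule. -/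
lemma sum_slice_eq {P : X₁ × X₂ → ℝ} (hP : ∀ x, 0 ≤ P x) {P₁ : X₁ → ℝ}
    (hP₁ : ∀ x₁, ∑ x₂, P (x₁, x₂) = P₁ x₁) (m : ℝ) :
    ∑ x₁, P₁ x₁ * (Ent (fun x₂ => P (x₁, x₂)) / P₁ x₁ / m) = (Hsum P - Hsum P₁) / m := by
  have hc := Hsum_prod P
  have e : (fun a => ∑ b, P (a, b)) = P₁ := funext hP₁
  rw [e] at hc
  rw [hc, add_sub_cancel_left, Finset.sum_div]
  apply Finset.sum_congr rfl
  intro x₁ _
  by_cases h0 : P₁ x₁ = 0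
  · have hz : (fun x₂ => P (x₁, x₂)) = fun _ => 0 :=
      eq_zero_of_sum_zero (fun x₂ => hP _) ((hP₁ x₁).trans h0)
    rw [hz, Ent_zero, h0]
    simp
  · field_simp

omit [Fintype X₁] in
lemma slice_term_nonneg {P : X₁ × X₂ → ℝ} (hP : ∀ x, 0 ≤ P x) {P₁ : X₁ → ℝ}
    (hP₁ : ∀ x₁, ∑ x₂, P (x₁, x₂) = P₁ x₁) {m : ℝ} (hm : 0 < m) (x₁ : X₁) :
    0 ≤ Ent (fun x₂ => P (x₁, x₂)) / P₁ x₁ / m := by
  have h1 : 0 ≤ Ent (fun x₂ => P (x₁, x₂)) := Ent_nonneg fun x₂ => hP _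
  have h2 : 0 ≤ P₁ x₁ := by
    rw [← hP₁]
    exact Finset.sum_nonneg fun x₂ _ => hP _
  exact div_nonneg (div_nonneg h1 h2) hm.le

lemma marginal_isDist {P : X₁ × X₂ → ℝ} (hP : IsDist P) {P₁ : X₁ → ℝ}
    (hP₁ : ∀ x₁, ∑ x₂, P (x₁, x₂) = P₁ x₁) : IsDist P₁ := by
  refine ⟨fun x₁ => ?_, ?_⟩
  · rw [← hP₁]
    exact Finset.sum_nonneg fun x₂ _ => hP.1 _
  · rw [← hP.2, Fintype.sum_prod_type]
    exact Finset.sum_congr rfl fun x₁ _ => (hP₁ x₁).symm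

/-- Tensorisation: the inequality for two kernels implies it for their product. -/
theorem EP_tensor {η m₁ m₂ : ℝ} (hη0 : 0 ≤ η) (hη1 : η ≤ 1) {K₁ : X₁ → Y₁ → Z₁ → ℝ}
    {K₂ : X₂ → Y₂ → Z₂ → ℝ} (hK₁ : IsKernel K₁) (hK₂ : IsKernel K₂) (hm₁ : 0 < m₁)
    (hm₂ : 0 < m₂) (h₁ : EP η K₁ m₁) (h₂ : EP η K₂ m₂) : EP η (tensorK K₁ K₂) (m₁ + m₂) := by
  intro P Q hP hQ
  obtain ⟨P₁, hP₁⟩ : ∃ P₁ : X₁ → ℝ, ∀ x₁, ∑ x₂, P (x₁, x₂) = P₁ x₁ := ⟨_, fun _ => rfl⟩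
  obtain ⟨Q₁, hQ₁⟩ : ∃ Q₁ : Y₁ → ℝ, ∀ y₁, ∑ y₂, Q (y₁, y₂) = Q₁ y₁ := ⟨_, fun _ => rfl⟩
  have hP₁d : IsDist P₁ := marginal_isDist hP hP₁
  have hQ₁d : IsDist Q₁ := marginal_isDist hQ hQ₁
  obtain ⟨Sl, hSl⟩ : ∃ Sl : X₁ → Y₁ → Z₂ → ℝ, ∀ x₁ y₁,
      Sl x₁ y₁ = outDist K₂ (fun x₂ => P (x₁, x₂)) (fun y₂ => Q (y₁, y₂)) := ⟨_, fun _ _ => rfl⟩
  obtain ⟨R, hRdef⟩ : ∃ R : Z₁ × Z₂ → ℝ, R = outDist (tensorK K₁ K₂) P Q := ⟨_, rfl⟩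
  rw [← hRdef]
  have hSl0 : ∀ x₁ y₁ z₂, 0 ≤ Sl x₁ y₁ z₂ := by
    intro x₁ y₁ z₂
    rw [hSl]
    exact outDist_nonneg hK₂ (fun x₂ => hP.1 _) (fun y₂ => hQ.1 _) z₂
  have hR : ∀ z₁ z₂, R (z₁, z₂) = ∑ x₁, ∑ y₁, K₁ x₁ y₁ z₁ * Sl x₁ y₁ z₂ := by
    intro z₁ z₂
    rw [hRdef]
    simp only [hSl, outDist, tensorK, Fintype.sum_prod_type]
    apply Finset.sum_congr rfl
    intro x₁ _
    rw [Finset.sum_comm]
    apply Finset.sum_congr rfl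
    intro y₁ _
    rw [Finset.mul_sum]
    apply Finset.sum_congr rfl
    intro x₂ _
    rw [Finset.mul_sum]
    apply Finset.sum_congr rfl
    intro y₂ _
    ring
  have hSlsum : ∀ x₁ y₁, ∑ z₂, Sl x₁ y₁ z₂ = P₁ x₁ * Q₁ y₁ := by
    intro x₁ y₁
    rw [hSl, sum_outDist hK₂, hP₁, hQ₁]
  have hRm : ∀ z₁, ∑ z₂, R (z₁, z₂) = outDist K₁ P₁ Q₁ z₁ := by
    intro z₁
    simp only [hR]
    rw [Finset.sum_comm]
    unfold outDist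
    apply Finset.sum_congr rfl
    intro x₁ _
    rw [Finset.sum_comm]
    apply Finset.sum_congr rfl
    intro y₁ _
    rw [← Finset.mul_sum, hSlsum]
    ring
  have hchain : Hsum R = Hsum (outDist K₁ P₁ Q₁) + ∑ z₁, Ent (fun z₂ => R (z₁, z₂)) := by
    rw [Hsum_prod]
    have e : (fun a => ∑ b, R (a, b)) = outDist K₁ P₁ Q₁ := funext hRm
    rw [e]
  have h4 : ∀ z₁, ∑ x₁, ∑ y₁, K₁ x₁ y₁ z₁ * Ent (Sl x₁ y₁) ≤ Ent (fun z₂ => R (z₁, z₂)) := by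
    intro z₁
    have h := Ent_sum_ge (ι := X₁ × Y₁) (u := fun j z₂ => K₁ j.1 j.2 z₁ * Sl j.1 j.2 z₂)
      (fun j z₂ => mul_nonneg ((hK₁ _ _).1 _) (hSl0 _ _ _))
    have e : ∀ j : X₁ × Y₁, Ent (fun z₂ => K₁ j.1 j.2 z₁ * Sl j.1 j.2 z₂) =
        K₁ j.1 j.2 z₁ * Ent (Sl j.1 j.2) := fun j => Ent_smul _ _
    simp only [e, Fintype.sum_prod_type] at h
    have e2 : (fun z₂ => R (z₁, z₂)) = fun z₂ => ∑ x₁, ∑ y₁, K₁ x₁ y₁ z₁ * Sl x₁ y₁ z₂ :=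
      funext fun z₂ => hR z₁ z₂
    rw [e2]
    exact h
  have h5 : ∑ z₁, ∑ x₁, ∑ y₁, K₁ x₁ y₁ z₁ * Ent (Sl x₁ y₁) = ∑ x₁, ∑ y₁, Ent (Sl x₁ y₁) := by
    rw [Finset.sum_comm]
    apply Finset.sum_congr rfl
    intro x₁ _
    rw [Finset.sum_comm]
    apply Finset.sum_congr rfl
    intro y₁ _
    rw [← Finset.sum_mul, (hK₁ x₁ y₁).2, one_mul]
  have h6 : ∀ x₁ y₁, P₁ x₁ * Q₁ y₁ * (m₂ * Ffun η (Ent (fun x₂ => P (x₁, x₂)) / P₁ x₁ / m₂)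
      (Ent (fun y₂ => Q (y₁, y₂)) / Q₁ y₁ / m₂)) ≤ Ent (Sl x₁ y₁) := by
    intro x₁ y₁
    rw [hSl]
    exact EP_slice hK₂ h₂ (fun x₂ => hP.1 _) (fun y₂ => hQ.1 _) (hP₁ x₁) (hQ₁ y₁)
  have h7 := Ffun_jensen hη0 hη1 hP₁d hQ₁d (slice_term_nonneg hP.1 hP₁ hm₂)
    (slice_term_nonneg hQ.1 hQ₁ hm₂)
  rw [sum_slice_eq hP.1 hP₁, sum_slice_eq hQ.1 hQ₁] at h7
  have hPge : 0 ≤ Hsum P - Hsum P₁ := by
    have hc := Hsum_prod P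
    have e : (fun a => ∑ b, P (a, b)) = P₁ := funext hP₁
    rw [e] at hc
    rw [hc, add_sub_cancel_left]
    exact Finset.sum_nonneg fun x₁ _ => Ent_nonneg fun x₂ => hP.1 _
  have hQge : 0 ≤ Hsum Q - Hsum Q₁ := by
    have hc := Hsum_prod Q
    have e : (fun a => ∑ b, Q (a, b)) = Q₁ := funext hQ₁
    rw [e] at hc
    rw [hc, add_sub_cancel_left]
    exact Finset.sum_nonneg fun y₁ _ => Ent_nonneg fun y₂ => hQ.1 _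
  have h8 := Ffun_two_point hη0 hη1 hm₁ hm₂ (Hsum_nonneg hP₁d.1 hP₁d.2)
    (Hsum_nonneg hQ₁d.1 hQ₁d.2) hPge hQge
  rw [add_sub_cancel, add_sub_cancel] at h8
  have h9 := h₁ P₁ Q₁ hP₁d hQ₁d
  have h10 : ∑ x₁, ∑ y₁, P₁ x₁ * Q₁ y₁ * (m₂ * Ffun η (Ent (fun x₂ => P (x₁, x₂)) / P₁ x₁ / m₂)
      (Ent (fun y₂ => Q (y₁, y₂)) / Q₁ y₁ / m₂)) ≤ ∑ x₁, ∑ y₁, Ent (Sl x₁ y₁) :=
    Finset.sum_le_sum fun x₁ _ => Finset.sum_le_sum fun y₁ _ => h6 x₁ y₁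
  have h11 : ∑ x₁, ∑ y₁, P₁ x₁ * Q₁ y₁ * (m₂ * Ffun η (Ent (fun x₂ => P (x₁, x₂)) / P₁ x₁ / m₂)
      (Ent (fun y₂ => Q (y₁, y₂)) / Q₁ y₁ / m₂)) =
      m₂ * ∑ x₁, ∑ y₁, P₁ x₁ * Q₁ y₁ * Ffun η (Ent (fun x₂ => P (x₁, x₂)) / P₁ x₁ / m₂)
      (Ent (fun y₂ => Q (y₁, y₂)) / Q₁ y₁ / m₂) := by
    rw [Finset.mul_sum]
    apply Finset.sum_congr rfl
    intro x₁ _
    rw [Finset.mul_sum]
    apply Finset.sum_congr rfl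
    intro y₁ _
    ring
  have h12 : ∑ z₁, ∑ x₁, ∑ y₁, K₁ x₁ y₁ z₁ * Ent (Sl x₁ y₁) ≤
      ∑ z₁, Ent (fun z₂ => R (z₁, z₂)) := Finset.sum_le_sum fun z₁ _ => h4 z₁
  have h13 := mul_le_mul_of_nonneg_left h7 hm₂.le
  rw [hchain]
  linarith

/-- Transport of the inequality along relabellings of the alphabets. -/
theorem EP_equiv {X' Y' Z' : Type*} [Fintype X'] [Fintype Y'] [Fintype Z'] {η m : ℝ}
    {K : X → Y → Z → ℝ} (eX : X' ≃ X) (eY : Y' ≃ Y) (eZ : Z' ≃ Z) (h : EP η K m) :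
    EP η (fun x y z => K (eX x) (eY y) (eZ z)) m := by
  intro P Q hP hQ
  have hP' : IsDist fun x => P (eX.symm x) :=
    ⟨fun x => hP.1 _, by rw [← hP.2]; exact Equiv.sum_comp eX.symm P⟩
  have hQ' : IsDist fun y => Q (eY.symm y) :=
    ⟨fun y => hQ.1 _, by rw [← hQ.2]; exact Equiv.sum_comp eY.symm Q⟩
  have h1 := h _ _ hP' hQ'
  have e1 : Hsum (fun x => P (eX.symm x)) = Hsum P :=
    Equiv.sum_comp eX.symm fun x => Real.negMulLog (P x)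
  have e2 : Hsum (fun y => Q (eY.symm y)) = Hsum Q :=
    Equiv.sum_comp eY.symm fun y => Real.negMulLog (Q y)
  have e3 : ∀ z', outDist (fun x y z => K (eX x) (eY y) (eZ z)) P Q z' =
      outDist K (fun x => P (eX.symm x)) (fun y => Q (eY.symm y)) (eZ z') := by
    intro z'
    unfold outDist
    rw [← Equiv.sum_comp eX]
    apply Finset.sum_congr rfl
    intro x _
    rw [← Equiv.sum_comp eY]
    apply Finset.sum_congr rfl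
    intro y _
    simp only [Equiv.symm_apply_apply]
  have e4 : Hsum (outDist (fun x y z => K (eX x) (eY y) (eZ z)) P Q) =
      Hsum (outDist K (fun x => P (eX.symm x)) (fun y => Q (eY.symm y))) := by
    unfold Hsum
    rw [← Equiv.sum_comp eZ]
    apply Finset.sum_congr rfl
    intro z' _
    rw [e3]
  rw [e1, e2] at h1
  rw [e4]
  exact h1

end Vale.Agent.Lib.P369
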