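import Mathlib
import Vale.Agent.Lib.P369.DefsN
import Vale.Agent.Lib.P369.Main
import Vale.Agent.Lib.P369.TensorMain

/-!
# The entropy photon-number inequality for many modes with at most one photon per mode
-/

namespace Vale.Agent.Lib.P369

open Real Finset

lemma bsK_isKernel {η : ℝ} (hη0 : 0 ≤ η) (hη1 : η ≤ 1) : IsKernel (bsK η) := by
  have h1 : 0 ≤ 1 - η := sub_nonneg.2 hη1
  have h2 : 0 ≤ 2 * η * (1 - η) := by positivity
  have h3 : 0 ≤ (2 * η - 1) ^ 2 := sq_nonneg _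
  intro x y
  constructor
  · intro z
    fin_cases x <;> fin_cases y <;> fin_cases z <;> simp [bsK] <;> assumption
  · rw [Fin.sum_univ_three]
    fin_cases x <;> fin_cases y <;> (simp [bsK]; try ring)

lemma EP_bsK {η : ℝ} (hη0 : 0 ≤ η) (hη1 : η ≤ 1) : EP η (bsK η) 1 := by
  intro P Q hP hQ
  obtain ⟨p, hp⟩ : ∃ p, P 1 = p := ⟨_, rfl⟩
  obtain ⟨q, hq⟩ : ∃ q, Q 1 = q := ⟨_, rfl⟩
  have hP0 : P 0 = 1 - p := by
    have := hP.2
    rw [Fin.sum_univ_two] at this
    linarith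
  have hQ0 : Q 0 = 1 - q := by
    have := hQ.2
    rw [Fin.sum_univ_two] at this
    linarith
  have hp0 : 0 ≤ p := hp ▸ hP.1 1
  have hq0 : 0 ≤ q := hq ▸ hQ.1 1
  have hp1 : p ≤ 1 := by
    have := hP.1 0
    linarith
  have hq1 : q ≤ 1 := by
    have := hQ.1 0
    linarith
  have eP : Hsum P = binEntropy p := by
    unfold Hsum
    rw [Fin.sum_univ_two, hP0, hp, binEntropy_eq_negMulLog_add_negMulLog_one_sub]
    ring
  have eQ : Hsum Q = binEntropy q := by
    unfold Hsum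
    rw [Fin.sum_univ_two, hQ0, hq, binEntropy_eq_negMulLog_add_negMulLog_one_sub]
    ring
  have e0 : outDist (bsK η) P Q 0 = out0 p q η := by
    simp only [outDist, Fin.sum_univ_two, hP0, hQ0, hp, hq, out0]
    simp [bsK]
    ring
  have e1 : outDist (bsK η) P Q 1 = out1 p q η := by
    simp only [outDist, Fin.sum_univ_two, hP0, hQ0, hp, hq, out1]
    simp [bsK]
    ring
  have e2 : outDist (bsK η) P Q 2 = out2 p q η := by
    simp only [outDist, Fin.sum_univ_two, hP0, hQ0, hp, hq, out2]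
    simp [bsK]
  have eR : Hsum (outDist (bsK η) P Q) =
      negMulLog (out0 p q η) + negMulLog (out1 p q η) + negMulLog (out2 p q η) := by
    unfold Hsum
    rw [Fin.sum_univ_three, e0, e1, e2]
  have hhp : 0 ≤ binEntropy p := binEntropy_nonneg hp0 hp1
  have hhq : 0 ≤ binEntropy q := binEntropy_nonneg hq0 hq1
  have hR0 : 0 ≤ negMulLog (out0 p q η) + negMulLog (out1 p q η) + negMulLog (out2 p q η) := by
    rw [← eR]
    have hd := outDist_isDist (bsK_isKernel hη0 hη1) hP hQ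
    exact Hsum_nonneg hd.1 hd.2
  have key := epni_fock01 hp0 hp1 hq0 hq1 hη0 hη1 (Ginv_nonneg hhp) (Ginv_nonneg hhq)
    (Ginv_nonneg hR0) (gfun_Ginv hhp) (gfun_Ginv hhq) (gfun_Ginv hR0)
  rw [div_one, div_one, one_mul, eP, eQ, eR]
  unfold Ffun
  have hnn : 0 ≤ η * Ginv (binEntropy p) + (1 - η) * Ginv (binEntropy q) :=
    add_nonneg (mul_nonneg hη0 (Ginv_nonneg hhp)) (mul_nonneg (sub_nonneg.2 hη1) (Ginv_nonneg hhq))
  have := gfun_le_gfun hnn key
  rwa [gfun_Ginv hR0] at this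

/-- The kernel of `n` modes: the product of the one-mode kernels. -/
noncomputable def modeK (η : ℝ) (n : ℕ) :
    (Fin n → Fin 2) → (Fin n → Fin 2) → (Fin n → Fin 3) → ℝ :=
  fun x y z => ∏ i, bsK η (x i) (y i) (z i)

lemma modeOut_eq (η : ℝ) (n : ℕ) (P Q : (Fin n → Fin 2) → ℝ) :
    modeOut η n P Q = outDist (modeK η n) P Q := rfl

lemma modeK_isKernel {η : ℝ} (hη0 : 0 ≤ η) (hη1 : η ≤ 1) (n : ℕ) : IsKernel (modeK η n) := by
  intro x y
  constructor
  · intro z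
    exact Finset.prod_nonneg fun i _ => (bsK_isKernel hη0 hη1 (x i) (y i)).1 (z i)
  · unfold modeK
    rw [← Fintype.prod_sum (fun i m => bsK η (x i) (y i) m)]
    exact Finset.prod_eq_one fun i _ => (bsK_isKernel hη0 hη1 (x i) (y i)).2

/-- Splitting off the first coordinate. -/
def splitEquiv (α : Type) (n : ℕ) : (Fin (n + 1) → α) ≃ α × (Fin n → α) where
  toFun f := (f 0, fun i => f i.succ)
  invFun p := Fin.cons p.1 p.2
  left_inv f := by
    funext i
    refine Fin.cases ?_ (fun j => ?_) i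
    · simp
    · simp
  right_inv p := by
    ext
    · simp
    · simp

lemma modeK_succ (η : ℝ) (n : ℕ) : modeK η (n + 1) = fun x y z =>
    tensorK (bsK η) (modeK η n) (splitEquiv (Fin 2) n x) (splitEquiv (Fin 2) n y)
      (splitEquiv (Fin 3) n z) := by
  funext x y z
  simp only [modeK, tensorK, splitEquiv, Equiv.coe_fn_mk, Fin.prod_univ_succ]

theorem EP_modeK {η : ℝ} (hη0 : 0 ≤ η) (hη1 : η ≤ 1) :
    ∀ n : ℕ, EP η (modeK η (n + 1)) ((n : ℝ) + 1) := by
  intro n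
  induction n with
  | zero =>
    have h := EP_equiv (Equiv.funUnique (Fin 1) (Fin 2)) (Equiv.funUnique (Fin 1) (Fin 2))
      (Equiv.funUnique (Fin 1) (Fin 3)) (EP_bsK hη0 hη1)
    have e : modeK η 1 = fun x y z => bsK η (Equiv.funUnique (Fin 1) (Fin 2) x)
        (Equiv.funUnique (Fin 1) (Fin 2) y) (Equiv.funUnique (Fin 1) (Fin 3) z) := by
      funext x y z
      simp [modeK, Equiv.funUnique]
    rw [e]
    simpa using h
  | succ n ih =>
    have h := EP_tensor hη0 hη1 (bsK_isKernel hη0 hη1) (modeK_isKernel hη0 hη1 (n + 1)) one_pos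
      (by positivity) (EP_bsK hη0 hη1) ih
    have h2 := EP_equiv (splitEquiv (Fin 2) (n + 1)) (splitEquiv (Fin 2) (n + 1))
      (splitEquiv (Fin 3) (n + 1)) h
    rw [modeK_succ]
    have e : (1 : ℝ) + ((n : ℝ) + 1) = ((n + 1 : ℕ) : ℝ) + 1 := by
      push_cast
      ring
    rw [← e]
    exact h2

/-- The entropy photon-number inequality for `n` modes and inputs diagonal in the product Fock
basis with at most one photon per mode. -/
theorem epni_fock_modes {n : ℕ} (hn : 1 ≤ n) {η : ℝ} (hη0 : 0 ≤ η) (hη1 : η ≤ 1)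
    {P Q : (Fin n → Fin 2) → ℝ} (hP0 : ∀ x, 0 ≤ P x) (hP1 : ∑ x, P x = 1)
    (hQ0 : ∀ y, 0 ≤ Q y) (hQ1 : ∑ y, Q y = 1) {a b c : ℝ} (ha : 0 ≤ a) (hb : 0 ≤ b)
    (hc : 0 ≤ c) (hA : (n : ℝ) * gfun a = ∑ x, Real.negMulLog (P x))
    (hB : (n : ℝ) * gfun b = ∑ y, Real.negMulLog (Q y))
    (hC : (n : ℝ) * gfun c = ∑ z, Real.negMulLog (modeOut η n P Q z)) :
    η * a + (1 - η) * b ≤ c := by
  obtain ⟨k, rfl⟩ : ∃ k, n = k + 1 := ⟨n - 1, by omega⟩
  have h := EP_modeK hη0 hη1 k P Q ⟨hP0, hP1⟩ ⟨hQ0, hQ1⟩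
  have hk : (0 : ℝ) < (k : ℝ) + 1 := by positivity
  have ecast : ((k + 1 : ℕ) : ℝ) = (k : ℝ) + 1 := by push_cast; ring
  rw [ecast] at hA hB hC
  have eP : Hsum P / ((k : ℝ) + 1) = gfun a := by
    unfold Hsum
    rw [← hA]
    field_simp
  have eQ : Hsum Q / ((k : ℝ) + 1) = gfun b := by
    unfold Hsum
    rw [← hB]
    field_simp
  have eR : Hsum (outDist (modeK η (k + 1)) P Q) = ((k : ℝ) + 1) * gfun c := by
    rw [hC, modeOut_eq]
    rfl
  rw [eP, eQ, eR] at h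
  have h2 : Ffun η (gfun a) (gfun b) ≤ gfun c := le_of_mul_le_mul_left h hk
  unfold Ffun at h2
  rw [Ginv_gfun ha, Ginv_gfun hb] at h2
  have hnn : 0 ≤ η * a + (1 - η) * b :=
    add_nonneg (mul_nonneg hη0 ha) (mul_nonneg (sub_nonneg.2 hη1) hb)
  exact le_of_gfun_le hnn hc h2

end Vale.Agent.Lib.P369
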