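import Mathlib
import Vale.Agent.Lib.P369.DefsQ

/-!
# The output state for inputs with at most one photon: explicit entries
-/

namespace Vale.Agent.Lib.P369

open scoped Kronecker
open Matrix

lemma bsOut_apply (η : ℝ) (A B : Matrix (Fin 2) (Fin 2) ℂ) (m m' : Fin 3) :
    bsOut η A B m m' = ∑ l : Fin 3, ∑ j' : Fin 2, ∑ k' : Fin 2, ∑ j : Fin 2, ∑ k : Fin 2,
      bsIso η (m, l) (j, k) * (A j j' * B k k') * star (bsIso η (m', l) (j', k')) := by
  unfold bsOut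
  simp only [Matrix.mul_apply, Matrix.conjTranspose_apply, Matrix.kroneckerMap_apply,
    Fintype.sum_prod_type, Finset.sum_mul]

lemma sqrt_sq_cast {x : ℝ} (hx : 0 ≤ x) : ((Real.sqrt x : ℝ) : ℂ) ^ 2 = (x : ℂ) := by
  rw [← Complex.ofReal_pow, Real.sq_sqrt hx]

/-- The entries of the output state. -/
lemma bsOut_eq {η : ℝ} (hη0 : 0 ≤ η) (hη1 : η ≤ 1) (A B : Matrix (Fin 2) (Fin 2) ℂ) :
    bsOut η A B = !![
      A 0 0 * B 0 0 + A 0 0 * B 1 1 * η + A 1 1 * B 0 0 * (1 - η)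
          + A 1 1 * B 1 1 * (2 * η * (1 - η))
          - (Real.sqrt η : ℂ) * (Real.sqrt (1 - η) : ℂ) * (A 0 1 * B 1 0 + A 1 0 * B 0 1),
      A 0 0 * B 0 1 * (Real.sqrt (1 - η) : ℂ) + A 0 1 * B 0 0 * (Real.sqrt η : ℂ)
          + A 0 1 * B 1 1 * (Real.sqrt η : ℂ) * (2 * η - 1)
          - A 1 1 * B 0 1 * (Real.sqrt (1 - η) : ℂ) * (2 * η - 1),
      A 0 1 * B 0 1 * (Real.sqrt (2 * η * (1 - η)) : ℂ);
      A 0 0 * B 1 0 * (Real.sqrt (1 - η) : ℂ) + A 1 0 * B 0 0 * (Real.sqrt η : ℂ)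
          + A 1 0 * B 1 1 * (Real.sqrt η : ℂ) * (2 * η - 1)
          - A 1 1 * B 1 0 * (Real.sqrt (1 - η) : ℂ) * (2 * η - 1),
      A 0 0 * B 1 1 * (1 - η) + A 1 1 * B 0 0 * η + A 1 1 * B 1 1 * (2 * η - 1) ^ 2
          + (Real.sqrt η : ℂ) * (Real.sqrt (1 - η) : ℂ) * (A 0 1 * B 1 0 + A 1 0 * B 0 1),
      (Real.sqrt (2 * η * (1 - η)) : ℂ)
          * (A 0 1 * B 1 1 * (Real.sqrt (1 - η) : ℂ) + A 1 1 * B 0 1 * (Real.sqrt η : ℂ));
      A 1 0 * B 1 0 * (Real.sqrt (2 * η * (1 - η)) : ℂ),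
      (Real.sqrt (2 * η * (1 - η)) : ℂ)
          * (A 1 0 * B 1 1 * (Real.sqrt (1 - η) : ℂ) + A 1 1 * B 1 0 * (Real.sqrt η : ℂ)),
      A 1 1 * B 1 1 * (2 * η * (1 - η))] := by
  have h1 : (0 : ℝ) ≤ 1 - η := sub_nonneg.2 hη1
  have h2 : (0 : ℝ) ≤ 2 * η * (1 - η) := by positivity
  have e1 := sqrt_sq_cast hη0
  have e2 := sqrt_sq_cast h1
  have e3 := sqrt_sq_cast h2
  push_cast at e1 e2 e3
  ext i j
  fin_cases i <;> fin_cases j
  · rw [bsOut_apply]
    simp [bsIso, bsAmp, Fin.sum_univ_three, Fin.sum_univ_two, map_ofNat] <;>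
    linear_combination (A 0 0 * B 1 1) * e1 + (A 1 1 * B 0 0) * e2 + (A 1 1 * B 1 1) * e3
  · rw [bsOut_apply]
    simp [bsIso, bsAmp, Fin.sum_univ_three, Fin.sum_univ_two, map_ofNat] <;> ring
  · rw [bsOut_apply]
    simp [bsIso, bsAmp, Fin.sum_univ_three, Fin.sum_univ_two, map_ofNat] <;> ring
  · rw [bsOut_apply]
    simp [bsIso, bsAmp, Fin.sum_univ_three, Fin.sum_univ_two, map_ofNat] <;> ring
  · rw [bsOut_apply]
    simp [bsIso, bsAmp, Fin.sum_univ_three, Fin.sum_univ_two, map_ofNat] <;>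
    linear_combination (A 0 0 * B 1 1) * e2 + (A 1 1 * B 0 0) * e1
  · rw [bsOut_apply]
    simp [bsIso, bsAmp, Fin.sum_univ_three, Fin.sum_univ_two, map_ofNat] <;> ring
  · rw [bsOut_apply]
    simp [bsIso, bsAmp, Fin.sum_univ_three, Fin.sum_univ_two, map_ofNat] <;> ring
  · rw [bsOut_apply]
    simp [bsIso, bsAmp, Fin.sum_univ_three, Fin.sum_univ_two, map_ofNat] <;> ring
  · rw [bsOut_apply]
    simp [bsIso, bsAmp, Fin.sum_univ_three, Fin.sum_univ_two, map_ofNat] <;>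
    linear_combination (A 1 1 * B 1 1) * e3

lemma bsOut_add_left (η : ℝ) (A A' B : Matrix (Fin 2) (Fin 2) ℂ) :
    bsOut η (A + A') B = bsOut η A B + bsOut η A' B := by
  ext m m'
  simp only [bsOut_apply, Matrix.add_apply, ← Finset.sum_add_distrib]
  refine Finset.sum_congr rfl fun l _ => Finset.sum_congr rfl fun j' _ =>
    Finset.sum_congr rfl fun k' _ => Finset.sum_congr rfl fun j _ =>
    Finset.sum_congr rfl fun k _ => ?_
  ring

lemma bsOut_add_right (η : ℝ) (A B B' : Matrix (Fin 2) (Fin 2) ℂ) :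
    bsOut η A (B + B') = bsOut η A B + bsOut η A B' := by
  ext m m'
  simp only [bsOut_apply, Matrix.add_apply, ← Finset.sum_add_distrib]
  refine Finset.sum_congr rfl fun l _ => Finset.sum_congr rfl fun j' _ =>
    Finset.sum_congr rfl fun k' _ => Finset.sum_congr rfl fun j _ =>
    Finset.sum_congr rfl fun k _ => ?_
  ring

lemma bsOut_smul_left (η : ℝ) (x : ℝ) (A B : Matrix (Fin 2) (Fin 2) ℂ) :
    bsOut η (x • A) B = x • bsOut η A B := by
  ext m m'
  simp only [bsOut_apply, Matrix.smul_apply, Finset.smul_sum, Complex.real_smul]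
  refine Finset.sum_congr rfl fun l _ => Finset.sum_congr rfl fun j' _ =>
    Finset.sum_congr rfl fun k' _ => Finset.sum_congr rfl fun j _ =>
    Finset.sum_congr rfl fun k _ => ?_
  ring

lemma bsOut_smul_right (η : ℝ) (x : ℝ) (A B : Matrix (Fin 2) (Fin 2) ℂ) :
    bsOut η A (x • B) = x • bsOut η A B := by
  ext m m'
  simp only [bsOut_apply, Matrix.smul_apply, Finset.smul_sum, Complex.real_smul]
  refine Finset.sum_congr rfl fun l _ => Finset.sum_congr rfl fun j' _ =>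
    Finset.sum_congr rfl fun k' _ => Finset.sum_congr rfl fun j _ =>
    Finset.sum_congr rfl fun k _ => ?_
  ring

/-- The trace of the output state. -/
lemma bsOut_trace {η : ℝ} (hη0 : 0 ≤ η) (hη1 : η ≤ 1) (A B : Matrix (Fin 2) (Fin 2) ℂ) :
    (bsOut η A B).trace = A.trace * B.trace := by
  rw [bsOut_eq hη0 hη1]
  simp only [Matrix.trace, Matrix.diag, Fin.sum_univ_three, Fin.sum_univ_two, Matrix.of_apply,
    Matrix.cons_val', Matrix.cons_val_zero, Matrix.cons_val_one, Matrix.cons_val_two,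
    Matrix.cons_val_fin_one, Matrix.empty_val', Matrix.head_cons, Matrix.tail_cons,
    Matrix.head_fin_const]
  simp
  ring

/-- The output state of the two unnormalised maximally mixed inputs. -/
lemma bsOut_one_one {η : ℝ} (hη0 : 0 ≤ η) (hη1 : η ≤ 1) :
    bsOut η 1 1 = Matrix.diagonal ![((2 + 2 * η * (1 - η) : ℝ) : ℂ),
      ((2 - 4 * η * (1 - η) : ℝ) : ℂ), ((2 * η * (1 - η) : ℝ) : ℂ)] := by
  rw [bsOut_eq hη0 hη1]
  ext i j
  fin_cases i <;> fin_cases j <;> simp <;> ring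

end Vale.Agent.Lib.P369
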