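import Mathlib

/-!
# Positive semidefinite complex matrices of size two and three: two criteria
-/

namespace Vale.Agent.Lib.P369
open Matrix
open scoped ComplexOrder

lemma q1_cross {α β : ℝ} (hα : 0 ≤ α) (hβ : 0 ≤ β) {w : ℂ} (hw : ‖w‖ ^ 2 ≤ α * β) (u v : ℂ) :
    0 ≤ α * ‖u‖ ^ 2 + β * ‖v‖ ^ 2 + 2 * (star u * w * v).re := by
  have h1 : |(star u * w * v).re| ≤ ‖star u * w * v‖ := Complex.abs_re_le_norm _
  rw [norm_mul, norm_mul, norm_star] at h1
  set s := ‖u‖ with hs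
  set t := ‖v‖ with ht
  set n := ‖w‖ with hn
  have hs0 : 0 ≤ s := norm_nonneg _
  have ht0 : 0 ≤ t := norm_nonneg _
  have hn0 : 0 ≤ n := norm_nonneg _
  have h2 : (2 * (s * n * t)) ^ 2 ≤ (α * s ^ 2 + β * t ^ 2) ^ 2 := by
    have h3 : 0 ≤ s ^ 2 * t ^ 2 := by positivity
    nlinarith [sq_nonneg (α * s ^ 2 - β * t ^ 2), mul_le_mul_of_nonneg_right hw h3]
  have h4 : 2 * (s * n * t) ≤ α * s ^ 2 + β * t ^ 2 :=
    (sq_le_sq₀ (by positivity) (by positivity)).mp h2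
  have h5 := (abs_le.mp h1).1
  linarith

lemma q1_form_two (x y : ℝ) (z a b : ℂ) :
    star a * ((x : ℂ) * a + z * b) + star b * (star z * a + (y : ℂ) * b)
      = ((x * ‖a‖ ^ 2 + y * ‖b‖ ^ 2 + 2 * (star a * z * b).re : ℝ) : ℂ) := by
  rw [Complex.sq_norm, Complex.sq_norm]
  apply Complex.ext
  · simp [Complex.normSq_apply]
    ring
  · simp [Complex.normSq_apply]
    ring

lemma q1_herm_two (x y : ℝ) (z : ℂ) : (!![(x : ℂ), z; star z, (y : ℂ)]).IsHermitian := by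
  ext i j
  fin_cases i <;> fin_cases j <;> simp [Matrix.conjTranspose_apply]

lemma psd_two_iff (A : Matrix (Fin 2) (Fin 2) ℂ) :
    A.PosSemidef ↔ ∃ x y : ℝ, ∃ z : ℂ, A = !![(x : ℂ), z; star z, (y : ℂ)] ∧ 0 ≤ x ∧ 0 ≤ y ∧
      ‖z‖ ^ 2 ≤ x * y := by
  constructor
  · intro hA
    have h00 : star (A 0 0) = A 0 0 := hA.1.apply 0 0
    have h11 : star (A 1 1) = A 1 1 := hA.1.apply 1 1
    have h10 : star (A 0 1) = A 1 0 := hA.1.apply 1 0
    have e00 : A 0 0 = ((A 0 0).re : ℂ) := by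
      have := Complex.conj_eq_iff_re.mp h00
      exact this.symm
    have e11 : A 1 1 = ((A 1 1).re : ℂ) := by
      have := Complex.conj_eq_iff_re.mp h11
      exact this.symm
    have hd0 : (0 : ℂ) ≤ A 0 0 := hA.diag_nonneg
    have hd1 : (0 : ℂ) ≤ A 1 1 := hA.diag_nonneg
    have hx : 0 ≤ (A 0 0).re := (Complex.nonneg_iff.mp hd0).1
    have hy : 0 ≤ (A 1 1).re := (Complex.nonneg_iff.mp hd1).1
    refine ⟨(A 0 0).re, (A 1 1).re, A 0 1, ?_, hx, hy, ?_⟩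
    · ext i j
      fin_cases i <;> fin_cases j
      · simpa using e00
      · simp
      · simpa using h10.symm
      · simpa using e11
    · have hdet : (0 : ℂ) ≤ A.det := hA.det_nonneg
      rw [Matrix.det_fin_two, ← h10, e00, e11] at hdet
      have h2 : ((A 0 0).re : ℂ) * ((A 1 1).re : ℂ) - A 0 1 * star (A 0 1)
          = (((A 0 0).re * (A 1 1).re - ‖A 0 1‖ ^ 2 : ℝ) : ℂ) := by
        rw [Complex.sq_norm]
        have : A 0 1 * star (A 0 1) = (Complex.normSq (A 0 1) : ℂ) := Complex.mul_conj _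
        rw [this]
        push_cast
        ring
      rw [h2] at hdet
      have := Complex.zero_le_real.mp hdet
      linarith
  · rintro ⟨x, y, z, rfl, hx, hy, hz⟩
    refine PosSemidef.of_dotProduct_mulVec_nonneg (q1_herm_two x y z) fun v => ?_
    have e : star v ⬝ᵥ (!![(x : ℂ), z; star z, (y : ℂ)] *ᵥ v)
        = star (v 0) * ((x : ℂ) * v 0 + z * v 1) + star (v 1) * (star z * v 0 + (y : ℂ) * v 1) := by
      simp [dotProduct, mulVec, Fin.sum_univ_two]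
    rw [e, q1_form_two]
    exact Complex.zero_le_real.mpr (q1_cross hx hy hz (v 0) (v 1))

lemma q1_form_three (d0 d1 d1' d2 : ℝ) (p q a b c : ℂ) :
    star a * ((d0 : ℂ) * a + p * b + 0 * c)
      + star b * (star p * a + ((d1 + d1' : ℝ) : ℂ) * b + q * c)
      + star c * (0 * a + star q * b + (d2 : ℂ) * c)
      = (((d0 * ‖a‖ ^ 2 + d1 * ‖b‖ ^ 2 + 2 * (star a * p * b).re)
          + (d1' * ‖b‖ ^ 2 + d2 * ‖c‖ ^ 2 + 2 * (star b * q * c).re) : ℝ) : ℂ) := by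
  rw [Complex.sq_norm, Complex.sq_norm, Complex.sq_norm]
  apply Complex.ext
  · simp [Complex.normSq_apply]
    ring
  · simp [Complex.normSq_apply]
    ring

lemma psd_tridiag {D : Matrix (Fin 3) (Fin 3) ℂ} (hD : D.IsHermitian) {d0 d1 d1' d2 : ℝ}
    (h00 : D 0 0 = (d0 : ℂ)) (h11 : D 1 1 = ((d1 + d1' : ℝ) : ℂ)) (h22 : D 2 2 = (d2 : ℂ))
    (h02 : D 0 2 = 0) (hd0 : 0 ≤ d0) (hd1 : 0 ≤ d1) (hd1' : 0 ≤ d1') (hd2 : 0 ≤ d2)
    (h01 : ‖D 0 1‖ ^ 2 ≤ d0 * d1) (h12 : ‖D 1 2‖ ^ 2 ≤ d1' * d2) : D.PosSemidef := by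
  have h10 : D 1 0 = star (D 0 1) := (hD.apply 1 0).symm
  have h21 : D 2 1 = star (D 1 2) := (hD.apply 2 1).symm
  have h20 : D 2 0 = 0 := by
    have := (hD.apply 2 0).symm
    rw [h02] at this
    simpa using this
  refine PosSemidef.of_dotProduct_mulVec_nonneg hD fun v => ?_
  have e : star v ⬝ᵥ (D *ᵥ v)
      = star (v 0) * ((d0 : ℂ) * v 0 + D 0 1 * v 1 + 0 * v 2)
        + star (v 1) * (star (D 0 1) * v 0 + ((d1 + d1' : ℝ) : ℂ) * v 1 + D 1 2 * v 2)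
        + star (v 2) * (0 * v 0 + star (D 1 2) * v 1 + (d2 : ℂ) * v 2) := by
    simp only [dotProduct, mulVec, Fin.sum_univ_three, Pi.star_apply]
    rw [h00, h11, h22, h02, h10, h21, h20]
  rw [e, q1_form_three]
  apply Complex.zero_le_real.mpr
  have c1 := q1_cross hd0 hd1 h01 (v 0) (v 1)
  have c2 := q1_cross hd1' hd2 h12 (v 1) (v 2)
  linarith

end Vale.Agent.Lib.P369
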