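import Mathlib
import Vale.Agent.Lib.P369.QOut
import Vale.Agent.Lib.P369.QPsd

/-!
# Operator bounds for the output state when one input is the identity matrix
-/

namespace Vale.Agent.Lib.P369
open Matrix
open scoped ComplexOrder

/-- Explicit entries of `(2 - η)(x + y) • 1 - bsOut η 1 N` for `N = !![x, w; star w, y]`. -/
lemma q2_left_entries {η : ℝ} (hη0 : 0 ≤ η) (hη1 : η ≤ 1) (x y : ℝ) (w : ℂ) :
    ((2 - η) * (x + y)) • (1 : Matrix (Fin 3) (Fin 3) ℂ)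
        - bsOut η 1 !![(x : ℂ), w; star w, (y : ℂ)]
      = !![((2 * y * (1 - η) ^ 2 : ℝ) : ℂ),
            -(((2 * (1 - η) * Real.sqrt (1 - η) : ℝ) : ℂ) * w), 0;
          -(((2 * (1 - η) * Real.sqrt (1 - η) : ℝ) : ℂ) * star w),
            ((2 * x * (1 - η) + 4 * y * η * (1 - η) : ℝ) : ℂ),
            -(((Real.sqrt (2 * η * (1 - η)) * Real.sqrt η : ℝ) : ℂ) * w);
          0, -(((Real.sqrt (2 * η * (1 - η)) * Real.sqrt η : ℝ) : ℂ) * star w),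
            (((2 - η) * (x + y) - 2 * y * η * (1 - η) : ℝ) : ℂ)] := by
  rw [bsOut_eq hη0 hη1]
  ext i j
  fin_cases i <;> fin_cases j <;>
    simp [Matrix.sub_apply, Matrix.smul_apply] <;> ring

/-- Explicit entries of `(1 + η)(x + y) • 1 - bsOut η N 1` for `N = !![x, z; star z, y]`. -/
lemma q2_right_entries {η : ℝ} (hη0 : 0 ≤ η) (hη1 : η ≤ 1) (x y : ℝ) (z : ℂ) :
    ((1 + η) * (x + y)) • (1 : Matrix (Fin 3) (Fin 3) ℂ)
        - bsOut η !![(x : ℂ), z; star z, (y : ℂ)] 1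
      = !![((2 * y * η ^ 2 : ℝ) : ℂ),
            -(((2 * η * Real.sqrt η : ℝ) : ℂ) * z), 0;
          -(((2 * η * Real.sqrt η : ℝ) : ℂ) * star z),
            ((2 * x * η + 4 * y * η * (1 - η) : ℝ) : ℂ),
            -(((Real.sqrt (2 * η * (1 - η)) * Real.sqrt (1 - η) : ℝ) : ℂ) * z);
          0, -(((Real.sqrt (2 * η * (1 - η)) * Real.sqrt (1 - η) : ℝ) : ℂ) * star z),
            (((1 + η) * (x + y) - 2 * y * η * (1 - η) : ℝ) : ℂ)] := by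
  rw [bsOut_eq hη0 hη1]
  ext i j
  fin_cases i <;> fin_cases j <;>
    simp [Matrix.sub_apply, Matrix.smul_apply] <;> ring

lemma q2_norm_sq (c : ℝ) (w : ℂ) : ‖-(((c : ℝ) : ℂ) * w)‖ ^ 2 = c ^ 2 * ‖w‖ ^ 2 := by
  rw [norm_neg, norm_mul, Complex.norm_real, Real.norm_eq_abs, mul_pow, sq_abs]

lemma q2_trace (x y : ℝ) (w : ℂ) :
    (!![(x : ℂ), w; star w, (y : ℂ)]).trace.re = x + y := by
  simp [Matrix.trace_fin_two_of]

lemma bsOut_one_left_le {η : ℝ} (hη0 : 0 ≤ η) (hη1 : η ≤ 1) {N : Matrix (Fin 2) (Fin 2) ℂ}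
    (hN : N.PosSemidef) :
    (((2 - η) * N.trace.re) • (1 : Matrix (Fin 3) (Fin 3) ℂ) - bsOut η 1 N).PosSemidef := by
  obtain ⟨x, y, w, rfl, hx, hy, hw⟩ := (psd_two_iff N).1 hN
  rw [q2_trace, q2_left_entries hη0 hη1]
  have h1 : 0 ≤ 1 - η := sub_nonneg.2 hη1
  have hs : Real.sqrt (1 - η) ^ 2 = 1 - η := Real.sq_sqrt h1
  have hs2 : Real.sqrt η ^ 2 = η := Real.sq_sqrt hη0
  have hr : Real.sqrt (2 * η * (1 - η)) ^ 2 = 2 * η * (1 - η) := Real.sq_sqrt (by positivity)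
  have hq : 0 ≤ 2 - 3 * η + 2 * η ^ 2 := by nlinarith [sq_nonneg (η - 3 / 4)]
  refine psd_tridiag (d0 := 2 * y * (1 - η) ^ 2) (d1 := 2 * x * (1 - η))
    (d1' := 4 * y * η * (1 - η)) (d2 := (2 - η) * (x + y) - 2 * y * η * (1 - η))
    ?_ ?_ ?_ ?_ ?_ ?_ ?_ ?_ ?_ ?_ ?_
  · ext i j
    fin_cases i <;> fin_cases j <;> simp [Matrix.conjTranspose_apply]
  · simp
  · simp
  · simp
  · simp
  · positivity
  · positivity
  · positivity
  · nlinarith [mul_nonneg hx (by linarith : (0 : ℝ) ≤ 2 - η), mul_nonneg hy hq]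
  · show ‖-(((2 * (1 - η) * Real.sqrt (1 - η) : ℝ) : ℂ) * w)‖ ^ 2 ≤ _
    have hc : (2 * (1 - η) * Real.sqrt (1 - η)) ^ 2 = 4 * (1 - η) ^ 3 := by
      rw [mul_pow, hs]; ring
    rw [q2_norm_sq, hc]
    nlinarith [mul_le_mul_of_nonneg_left hw (by positivity : (0 : ℝ) ≤ 4 * (1 - η) ^ 3)]
  · show ‖-(((Real.sqrt (2 * η * (1 - η)) * Real.sqrt η : ℝ) : ℂ) * w)‖ ^ 2 ≤ _
    have hc : (Real.sqrt (2 * η * (1 - η)) * Real.sqrt η) ^ 2 = 2 * η ^ 2 * (1 - η) := by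
      rw [mul_pow, hr, hs2]; ring
    rw [q2_norm_sq, hc]
    have e1 := mul_le_mul_of_nonneg_left hw (by positivity : (0 : ℝ) ≤ 2 * η ^ 2 * (1 - η))
    have e2 : 0 ≤ 2 * y * η * (1 - η) * ((4 - 3 * η) * x + 2 * y * (2 - 3 * η + 2 * η ^ 2)) := by
      have : 0 ≤ (4 - 3 * η) * x + 2 * y * (2 - 3 * η + 2 * η ^ 2) := by
        have := mul_nonneg (by linarith : (0 : ℝ) ≤ 4 - 3 * η) hx
        have := mul_nonneg (mul_nonneg (by norm_num : (0 : ℝ) ≤ 2) hy) hq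
        linarith
      positivity
    nlinarith [e1, e2]

lemma bsOut_one_right_le {η : ℝ} (hη0 : 0 ≤ η) (hη1 : η ≤ 1) {N : Matrix (Fin 2) (Fin 2) ℂ}
    (hN : N.PosSemidef) :
    (((1 + η) * N.trace.re) • (1 : Matrix (Fin 3) (Fin 3) ℂ) - bsOut η N 1).PosSemidef := by
  obtain ⟨x, y, z, rfl, hx, hy, hz⟩ := (psd_two_iff N).1 hN
  rw [q2_trace, q2_right_entries hη0 hη1]
  have h1 : 0 ≤ 1 - η := sub_nonneg.2 hη1
  have hs : Real.sqrt (1 - η) ^ 2 = 1 - η := Real.sq_sqrt h1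
  have hs2 : Real.sqrt η ^ 2 = η := Real.sq_sqrt hη0
  have hr : Real.sqrt (2 * η * (1 - η)) ^ 2 = 2 * η * (1 - η) := Real.sq_sqrt (by positivity)
  have hq : 0 ≤ 1 - η + 2 * η ^ 2 := by nlinarith [sq_nonneg (η - 1 / 4)]
  refine psd_tridiag (d0 := 2 * y * η ^ 2) (d1 := 2 * x * η)
    (d1' := 4 * y * η * (1 - η)) (d2 := (1 + η) * (x + y) - 2 * y * η * (1 - η))
    ?_ ?_ ?_ ?_ ?_ ?_ ?_ ?_ ?_ ?_ ?_
  · ext i j
    fin_cases i <;> fin_cases j <;> simp [Matrix.conjTranspose_apply]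
  · simp
  · simp
  · simp
  · simp
  · positivity
  · positivity
  · positivity
  · nlinarith [mul_nonneg hx (by linarith : (0 : ℝ) ≤ 1 + η), mul_nonneg hy hq]
  · show ‖-(((2 * η * Real.sqrt η : ℝ) : ℂ) * z)‖ ^ 2 ≤ _
    have hc : (2 * η * Real.sqrt η) ^ 2 = 4 * η ^ 3 := by
      rw [mul_pow, hs2]; ring
    rw [q2_norm_sq, hc]
    nlinarith [mul_le_mul_of_nonneg_left hz (by positivity : (0 : ℝ) ≤ 4 * η ^ 3)]
  · show ‖-(((Real.sqrt (2 * η * (1 - η)) * Real.sqrt (1 - η) : ℝ) : ℂ) * z)‖ ^ 2 ≤ _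
    have hc : (Real.sqrt (2 * η * (1 - η)) * Real.sqrt (1 - η)) ^ 2
        = 2 * η * (1 - η) ^ 2 := by
      rw [mul_pow, hr, hs]; ring
    rw [q2_norm_sq, hc]
    have e1 := mul_le_mul_of_nonneg_left hz (by positivity : (0 : ℝ) ≤ 2 * η * (1 - η) ^ 2)
    have e2 : 0 ≤ 2 * y * η * (1 - η) * ((1 + 3 * η) * x + 2 * y * (1 - η + 2 * η ^ 2)) := by
      have : 0 ≤ (1 + 3 * η) * x + 2 * y * (1 - η + 2 * η ^ 2) := by
        have := mul_nonneg (by linarith : (0 : ℝ) ≤ 1 + 3 * η) hx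
        have := mul_nonneg (mul_nonneg (by norm_num : (0 : ℝ) ≤ 2) hy) hq
        linarith
      positivity
    nlinarith [e1, e2]

end Vale.Agent.Lib.P369
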