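import Mathlib
import Vale.Agent.Lib.P369.DefsQ
import Vale.Agent.Lib.P369.QPsd

/-!
# The entropy of a density matrix of size two, and a three-point majorisation inequality
-/

namespace Vale.Agent.Lib.P369
open Matrix
open scoped ComplexOrder

lemma q4_two {u v x y : ℝ} (hu : 0 ≤ u) (hux : u ≤ x) (hxv : x ≤ v) (hy : y = u + v - x) :
    Real.negMulLog u + Real.negMulLog v ≤ Real.negMulLog x + Real.negMulLog y := by
  rcases hux.trans hxv |>.eq_or_lt with huv | huv
  · have hx : x = u := le_antisymm (by linarith) hux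
    have hy' : y = u := by rw [hy, hx]; linarith
    rw [hx, hy', ← huv]
  · have hv0 : 0 ≤ v := hu.trans huv.le
    have hd : 0 < v - u := by linarith
    set t := (v - x) / (v - u) with ht
    have ht0 : 0 ≤ t := div_nonneg (by linarith) hd.le
    have ht1 : t ≤ 1 := by
      rw [ht, div_le_one hd]; linarith
    have hx' : t • u + (1 - t) • v = x := by
      rw [ht, smul_eq_mul, smul_eq_mul]
      field_simp
      ring
    have hy' : (1 - t) • u + t • v = y := by
      rw [hy, ht, smul_eq_mul, smul_eq_mul]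
      field_simp
      ring
    have hc := Real.concaveOn_negMulLog
    have h1 := hc.2 (Set.mem_Ici.mpr hu) (Set.mem_Ici.mpr hv0) ht0 (by linarith : 0 ≤ 1 - t)
      (by ring : t + (1 - t) = 1)
    have h2 := hc.2 (Set.mem_Ici.mpr hu) (Set.mem_Ici.mpr hv0) (by linarith : 0 ≤ 1 - t) ht0
      (by ring : (1 - t) + t = 1)
    rw [hx'] at h1
    rw [hy'] at h2
    simp only [smul_eq_mul] at h1 h2
    nlinarith

lemma negMulLog_three {x1 x2 x3 m r M : ℝ} (hm : 0 ≤ m) (hr : 0 ≤ r)
    (h1 : m ≤ x1) (h1' : x1 ≤ M) (h2 : m ≤ x2) (h2' : x2 ≤ M) (h3 : m ≤ x3) (h3' : x3 ≤ M)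
    (hsum : x1 + x2 + x3 = m + r + M) :
    Real.negMulLog m + Real.negMulLog r + Real.negMulLog M ≤
      Real.negMulLog x1 + Real.negMulLog x2 + Real.negMulLog x3 := by
  set s := x1 + x2 with hs
  by_cases hcase : s - m ≤ M
  · have a1 : Real.negMulLog m + Real.negMulLog (s - m) ≤ Real.negMulLog x1 + Real.negMulLog x2 :=
      q4_two hm h1 (by linarith) (by linarith)
    have a2 : Real.negMulLog r + Real.negMulLog M ≤ Real.negMulLog (s - m) + Real.negMulLog x3 :=
      q4_two hr (by linarith) hcase (by linarith)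
    linarith
  · rw [not_le] at hcase
    have a1 : Real.negMulLog (s - M) + Real.negMulLog M ≤ Real.negMulLog x1 + Real.negMulLog x2 :=
      q4_two (by linarith) (by linarith) h1' (by linarith)
    have a2 : Real.negMulLog m + Real.negMulLog r ≤ Real.negMulLog x3 + Real.negMulLog (s - M) :=
      q4_two hm h3 (by linarith) (by linarith)
    linarith

lemma q4_sub_two (x y l : ℝ) (z : ℂ) :
    !![(x : ℂ), z; star z, (y : ℂ)] - l • (1 : Matrix (Fin 2) (Fin 2) ℂ)
      = !![((x - l : ℝ) : ℂ), z; star z, ((y - l : ℝ) : ℂ)] := by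
  ext i j
  fin_cases i <;> fin_cases j <;> simp

lemma vnEntropy_two {A : Matrix (Fin 2) (Fin 2) ℂ} (hA : A.PosSemidef) (htr : A.trace = 1) :
    ∃ l : ℝ, 0 ≤ l ∧ l ≤ 1 / 2 ∧ vnEntropy A = Real.binEntropy l ∧
      (A - l • (1 : Matrix (Fin 2) (Fin 2) ℂ)).PosSemidef := by
  have h := hA.1
  set e0 := h.eigenvalues 0 with he0
  set e1 := h.eigenvalues 1 with he1
  have h0 : 0 ≤ e0 := hA.eigenvalues_nonneg 0
  have h1 : 0 ≤ e1 := hA.eigenvalues_nonneg 1
  have hsum : e0 + e1 = 1 := by
    have := h.trace_eq_sum_eigenvalues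
    rw [htr, Fin.sum_univ_two] at this
    have h2 : ((e0 + e1 : ℝ) : ℂ) = ((1 : ℝ) : ℂ) := by
      push_cast
      exact this.symm
    exact Complex.ofReal_injective h2
  have hprod : A.det = ((e0 * e1 : ℝ) : ℂ) := by
    have := h.det_eq_prod_eigenvalues
    rw [Fin.prod_univ_two] at this
    rw [this]
    push_cast
    rfl
  have hent : vnEntropy A = Real.negMulLog e0 + Real.negMulLog e1 := by
    unfold vnEntropy
    rw [dif_pos h, Fin.sum_univ_two]
  obtain ⟨x, y, z, hAeq, hx, hy, hz⟩ := (psd_two_iff A).mp hA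
  have hxy : x + y = 1 := by
    have : A.trace = ((x + y : ℝ) : ℂ) := by
      rw [hAeq, Matrix.trace_fin_two]
      simp
    rw [htr] at this
    exact_mod_cast this.symm
  have hdet : e0 * e1 = x * y - ‖z‖ ^ 2 := by
    have hd : A.det = ((x * y - ‖z‖ ^ 2 : ℝ) : ℂ) := by
      rw [hAeq, Matrix.det_fin_two_of, Complex.sq_norm]
      have : z * star z = (Complex.normSq z : ℂ) := Complex.mul_conj _
      rw [this]
      push_cast
      ring
    rw [hprod] at hd
    exact_mod_cast hd
  set l := min e0 e1 with hl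
  have hl0 : 0 ≤ l := le_min h0 h1
  have hl2 : l ≤ 1 / 2 := by
    rcases le_total e0 e1 with h01 | h10
    · rw [hl, min_eq_left h01]; linarith
    · rw [hl, min_eq_right h10]; linarith
  have hlprod : l * (1 - l) = e0 * e1 := by
    rcases le_total e0 e1 with h01 | h10
    · rw [hl, min_eq_left h01]
      have : 1 - e0 = e1 := by linarith
      rw [this]
    · rw [hl, min_eq_right h10]
      have : 1 - e1 = e0 := by linarith
      rw [this]; ring
  have hentl : vnEntropy A = Real.binEntropy l := by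
    rw [hent, Real.binEntropy_eq_negMulLog_add_negMulLog_one_sub]
    rcases le_total e0 e1 with h01 | h10
    · rw [hl, min_eq_left h01]
      have : 1 - e0 = e1 := by linarith
      rw [this]
    · rw [hl, min_eq_right h10]
      have : 1 - e1 = e0 := by linarith
      rw [this]; ring
  refine ⟨l, hl0, hl2, hentl, ?_⟩
  have hx1 : x ≤ 1 := by linarith
  have hy1 : y ≤ 1 := by linarith
  have hz0 : 0 ≤ ‖z‖ ^ 2 := by positivity
  have hxl : l ≤ x := by
    by_contra hcon
    rw [not_le] at hcon
    have hyx : y = 1 - x := by linarith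
    nlinarith
  have hyl : l ≤ y := by
    by_contra hcon
    rw [not_le] at hcon
    have hxy' : x = 1 - y := by linarith
    nlinarith
  rw [hAeq, q4_sub_two]
  rw [psd_two_iff]
  refine ⟨x - l, y - l, z, rfl, by linarith, by linarith, ?_⟩
  have hyx : y = 1 - x := by linarith
  nlinarith

end Vale.Agent.Lib.P369
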