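import Mathlib
import Vale.Agent.Lib.P369.QOut

namespace Vale.Agent.Lib.P369

open Matrix

/-- The beam-splitter matrix is an isometry. -/
lemma bsIso_isometry {η : ℝ} (hη0 : 0 ≤ η) (hη1 : η ≤ 1) :
    (bsIso η).conjTranspose * bsIso η = 1 := by
  have h1 : (0 : ℝ) ≤ 1 - η := sub_nonneg.2 hη1
  have h2 : (0 : ℝ) ≤ 2 * η * (1 - η) := by positivity
  have e1 := sqrt_sq_cast hη0
  have e2 := sqrt_sq_cast h1
  have e3 := sqrt_sq_cast h2
  push_cast at e1 e2 e3
  ext ⟨j, k⟩ ⟨j', k'⟩
  fin_cases j <;> fin_cases k <;> fin_cases j' <;> fin_cases k' <;>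
    simp [Matrix.mul_apply, Matrix.conjTranspose_apply, Fintype.sum_prod_type, bsIso, bsAmp,
      Fin.sum_univ_three, map_ofNat]
  all_goals first
    | linear_combination e1 + e2
    | linear_combination 2 * e3
    | linear_combination 2 * e3 + 0 * e1
    | ring

end Vale.Agent.Lib.P369
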