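import Mathlib
import Vale.Agent.Lib.P369.QOut

/-!
# Positivity of the output state, and eigenvalue bounds from operator bounds
-/

namespace Vale.Agent.Lib.P369
open Matrix
open scoped ComplexOrder

lemma psd_ptrace {m l : Type} [Fintype m] [Fintype l] {M : Matrix (m × l) (m × l) ℂ}
    (hM : M.PosSemidef) : (Matrix.of fun a b => ∑ k, M (a, k) (b, k)).PosSemidef := by
  have h1 : (Matrix.of fun a b => ∑ k, M (a, k) (b, k))
      = ∑ k : l, M.submatrix (fun a : m => (a, k)) (fun a : m => (a, k)) := by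
    ext a b
    simp [Matrix.sum_apply]
  rw [h1]
  exact Matrix.posSemidef_sum _ (fun k _ => hM.submatrix _)

lemma q3_unit_dot {n : Type} [Fintype n] [DecidableEq n] {A : Matrix n n ℂ}
    (hA : A.IsHermitian) (i : n) :
    star (⇑(hA.eigenvectorBasis i) : n → ℂ) ⬝ᵥ (⇑(hA.eigenvectorBasis i) : n → ℂ) = 1 := by
  have h1 := hA.eigenvectorBasis.orthonormal.1 i
  have h2 : inner ℂ (hA.eigenvectorBasis i) (hA.eigenvectorBasis i) = (1 : ℂ) := by
    rw [inner_self_eq_norm_sq_to_K, h1]; simp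
  rw [EuclideanSpace.inner_eq_star_dotProduct] at h2
  rw [dotProduct_comm]
  exact h2

lemma eigenvalues_le_of_psd {n : Type} [Fintype n] [DecidableEq n] {A : Matrix n n ℂ}
    (hA : A.IsHermitian) {c : ℝ} (h : (c • (1 : Matrix n n ℂ) - A).PosSemidef) (i : n) :
    hA.eigenvalues i ≤ c := by
  have h1 := h.dotProduct_mulVec_nonneg (⇑(hA.eigenvectorBasis i))
  rw [sub_mulVec, smul_mulVec, one_mulVec, hA.mulVec_eigenvectorBasis i, dotProduct_sub,
    dotProduct_smul, dotProduct_smul, q3_unit_dot hA i] at h1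
  have h2 : (0 : ℂ) ≤ ((c - hA.eigenvalues i : ℝ) : ℂ) := by
    have e : ((c - hA.eigenvalues i : ℝ) : ℂ) = c • (1 : ℂ) - hA.eigenvalues i • (1 : ℂ) := by
      simp
    rw [e]; exact h1
  have h3 : (0 : ℝ) ≤ c - hA.eigenvalues i := by exact_mod_cast h2
  linarith

lemma le_eigenvalues_of_psd {n : Type} [Fintype n] [DecidableEq n] {A : Matrix n n ℂ}
    (hA : A.IsHermitian) {c : ℝ} (h : (A - c • (1 : Matrix n n ℂ)).PosSemidef) (i : n) :
    c ≤ hA.eigenvalues i := by
  have h1 := h.dotProduct_mulVec_nonneg (⇑(hA.eigenvectorBasis i))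
  rw [sub_mulVec, smul_mulVec, one_mulVec, hA.mulVec_eigenvectorBasis i, dotProduct_sub,
    dotProduct_smul, dotProduct_smul, q3_unit_dot hA i] at h1
  have h2 : (0 : ℂ) ≤ ((hA.eigenvalues i - c : ℝ) : ℂ) := by
    have e : ((hA.eigenvalues i - c : ℝ) : ℂ) = hA.eigenvalues i • (1 : ℂ) - c • (1 : ℂ) := by
      simp
    rw [e]; exact h1
  have h3 : (0 : ℝ) ≤ hA.eigenvalues i - c := by exact_mod_cast h2
  linarith

lemma psd_trace_sub {n : Type} [Fintype n] [DecidableEq n] {M : Matrix n n ℂ}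
    (hM : M.PosSemidef) : (M.trace.re • (1 : Matrix n n ℂ) - M).PosSemidef := by
  have hH := hM.1
  have hsp := hH.spectral_theorem
  rw [Unitary.conjStarAlgAut_apply] at hsp
  set U : Matrix n n ℂ := (hH.eigenvectorUnitary : Matrix n n ℂ) with hU
  have hUU : U * star U = 1 := by
    have := hH.eigenvectorUnitary.2
    exact (Matrix.mem_unitaryGroup_iff).1 this
  have htr : M.trace.re = ∑ i, hH.eigenvalues i := by
    rw [hH.trace_eq_sum_eigenvalues]
    simp
  have hd : M.trace.re • (1 : Matrix n n ℂ) - M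
      = U * diagonal (fun i => ((M.trace.re - hH.eigenvalues i : ℝ) : ℂ)) * Uᴴ := by
    have e1 : diagonal (fun i => ((M.trace.re - hH.eigenvalues i : ℝ) : ℂ))
        = M.trace.re • (1 : Matrix n n ℂ) - diagonal (RCLike.ofReal ∘ hH.eigenvalues) := by
      ext a b
      by_cases hab : a = b
      · subst hab; simp [Matrix.sub_apply, Matrix.smul_apply]
      · simp [Matrix.sub_apply, Matrix.smul_apply, hab]
    rw [e1, Matrix.mul_sub, Matrix.sub_mul, Matrix.mul_smul, Matrix.smul_mul, Matrix.mul_one,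
      ← star_eq_conjTranspose, hUU]
    congr 1
  rw [hd]
  refine Matrix.PosSemidef.mul_mul_conjTranspose_same ?_ U
  refine Matrix.PosSemidef.diagonal ?_
  intro i
  have h1 : (0 : ℝ) ≤ M.trace.re - hH.eigenvalues i := by
    rw [htr, ← Finset.add_sum_erase Finset.univ _ (Finset.mem_univ i)]
    have : 0 ≤ ∑ j ∈ Finset.univ.erase i, hH.eigenvalues j :=
      Finset.sum_nonneg (fun j _ => hM.eigenvalues_nonneg j)
    linarith
  show (0 : ℂ) ≤ ((M.trace.re - hH.eigenvalues i : ℝ) : ℂ)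
  exact_mod_cast h1

lemma bsOut_posSemidef (η : ℝ) {A B : Matrix (Fin 2) (Fin 2) ℂ} (hA : A.PosSemidef)
    (hB : B.PosSemidef) : (bsOut η A B).PosSemidef := by
  have h1 := (hA.kronecker hB).mul_mul_conjTranspose_same (bsIso η)
  exact psd_ptrace h1

end Vale.Agent.Lib.P369
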