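import Mathlib
import Vale.Agent.Lib.P369.QBounds
import Vale.Agent.Lib.P369.QTools
import Vale.Agent.Lib.P369.QEntropy
import Vale.Agent.Lib.P369.Main
import Vale.Agent.Lib.P369.Inverse

/-!
# The entropy photon-number inequality for one-mode inputs with at most one photon

Assembly: the output state lies between `out2 • 1` and `out0 • 1`, so its spectrum is majorised
by `(out0, out1, out2)`, the output spectrum of the Fock-diagonal inputs with the same spectra.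
-/

namespace Vale.Agent.Lib.P369

open Matrix
open scoped ComplexOrder

lemma bsOut_decomp (η l u : ℝ) (NA NB : Matrix (Fin 2) (Fin 2) ℂ) :
    bsOut η (l • (1 : Matrix (Fin 2) (Fin 2) ℂ) + NA) (u • (1 : Matrix (Fin 2) (Fin 2) ℂ) + NB)
      = (l * u) • bsOut η 1 1 + l • bsOut η 1 NB + u • bsOut η NA 1 + bsOut η NA NB := by
  rw [bsOut_add_left, bsOut_add_right, bsOut_add_right, bsOut_smul_left, bsOut_smul_left,
    bsOut_smul_right, bsOut_smul_right, smul_smul]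
  abel

lemma psd_top_sub_one_one {η : ℝ} (hη0 : 0 ≤ η) (hη1 : η ≤ 1) :
    ((2 + 2 * η * (1 - η)) • (1 : Matrix (Fin 3) (Fin 3) ℂ) - bsOut η 1 1).PosSemidef := by
  have h : (2 + 2 * η * (1 - η)) • (1 : Matrix (Fin 3) (Fin 3) ℂ) - bsOut η 1 1
      = Matrix.diagonal ![((0 : ℝ) : ℂ), ((6 * η * (1 - η) : ℝ) : ℂ), ((2 : ℝ) : ℂ)] := by
    rw [bsOut_one_one hη0 hη1]
    ext i j
    fin_cases i <;> fin_cases j <;> simp <;> ring
  rw [h, posSemidef_diagonal_iff]
  have h1 : (0 : ℝ) ≤ 6 * η * (1 - η) := by nlinarith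
  intro i
  fin_cases i
  · simp
  · exact Complex.zero_le_real.2 h1
  · simp

lemma psd_one_one_sub_bot {η : ℝ} (hη0 : 0 ≤ η) (hη1 : η ≤ 1) :
    (bsOut η 1 1 - (2 * η * (1 - η)) • (1 : Matrix (Fin 3) (Fin 3) ℂ)).PosSemidef := by
  have h : bsOut η 1 1 - (2 * η * (1 - η)) • (1 : Matrix (Fin 3) (Fin 3) ℂ)
      = Matrix.diagonal ![((2 : ℝ) : ℂ), ((2 - 6 * η * (1 - η) : ℝ) : ℂ), ((0 : ℝ) : ℂ)] := by
    rw [bsOut_one_one hη0 hη1]
    ext i j
    fin_cases i <;> fin_cases j <;> simp <;> ring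
  rw [h, posSemidef_diagonal_iff]
  have h1 : (0 : ℝ) ≤ 2 - 6 * η * (1 - η) := by nlinarith [sq_nonneg (2 * η - 1)]
  intro i
  fin_cases i
  · simp
  · exact Complex.zero_le_real.2 h1
  · simp

lemma bsOut_upper {η l u : ℝ} (hη0 : 0 ≤ η) (hη1 : η ≤ 1) (hl : 0 ≤ l) (hu : 0 ≤ u)
    {NA NB : Matrix (Fin 2) (Fin 2) ℂ} (hNA : NA.PosSemidef) (hNB : NB.PosSemidef)
    (hta : NA.trace = ((1 - 2 * l : ℝ) : ℂ)) (htb : NB.trace = ((1 - 2 * u : ℝ) : ℂ)) :
    ((out0 l u η) • (1 : Matrix (Fin 3) (Fin 3) ℂ)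
      - bsOut η (l • (1 : Matrix (Fin 2) (Fin 2) ℂ) + NA)
          (u • (1 : Matrix (Fin 2) (Fin 2) ℂ) + NB)).PosSemidef := by
  have key : (out0 l u η) • (1 : Matrix (Fin 3) (Fin 3) ℂ)
      - bsOut η (l • (1 : Matrix (Fin 2) (Fin 2) ℂ) + NA)
          (u • (1 : Matrix (Fin 2) (Fin 2) ℂ) + NB)
      = (l * u) • ((2 + 2 * η * (1 - η)) • (1 : Matrix (Fin 3) (Fin 3) ℂ) - bsOut η 1 1)
        + l • (((2 - η) * NB.trace.re) • (1 : Matrix (Fin 3) (Fin 3) ℂ) - bsOut η 1 NB)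
        + u • (((1 + η) * NA.trace.re) • (1 : Matrix (Fin 3) (Fin 3) ℂ) - bsOut η NA 1)
        + ((bsOut η NA NB).trace.re • (1 : Matrix (Fin 3) (Fin 3) ℂ) - bsOut η NA NB) := by
    rw [bsOut_decomp, bsOut_trace hη0 hη1, hta, htb, ← Complex.ofReal_mul]
    simp only [Complex.ofReal_re]
    have h : out0 l u η = l * u * (2 + 2 * η * (1 - η)) + l * ((2 - η) * (1 - 2 * u))
        + u * ((1 + η) * (1 - 2 * l)) + (1 - 2 * l) * (1 - 2 * u) := by
      unfold out0; ring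
    rw [h]
    module
  rw [key]
  exact ((((psd_top_sub_one_one hη0 hη1).smul (mul_nonneg hl hu)).add
    ((bsOut_one_left_le hη0 hη1 hNB).smul hl)).add
    ((bsOut_one_right_le hη0 hη1 hNA).smul hu)).add
    (psd_trace_sub (bsOut_posSemidef η hNA hNB))

lemma bsOut_lower {η l u : ℝ} (hη0 : 0 ≤ η) (hη1 : η ≤ 1) (hl : 0 ≤ l) (hu : 0 ≤ u)
    {NA NB : Matrix (Fin 2) (Fin 2) ℂ} (hNA : NA.PosSemidef) (hNB : NB.PosSemidef) :
    (bsOut η (l • (1 : Matrix (Fin 2) (Fin 2) ℂ) + NA)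
          (u • (1 : Matrix (Fin 2) (Fin 2) ℂ) + NB)
      - (out2 l u η) • (1 : Matrix (Fin 3) (Fin 3) ℂ)).PosSemidef := by
  have key : bsOut η (l • (1 : Matrix (Fin 2) (Fin 2) ℂ) + NA)
          (u • (1 : Matrix (Fin 2) (Fin 2) ℂ) + NB)
      - (out2 l u η) • (1 : Matrix (Fin 3) (Fin 3) ℂ)
      = (l * u) • (bsOut η 1 1 - (2 * η * (1 - η)) • (1 : Matrix (Fin 3) (Fin 3) ℂ))
        + l • bsOut η 1 NB + u • bsOut η NA 1 + bsOut η NA NB := by
    rw [bsOut_decomp]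
    unfold out2
    module
  rw [key]
  exact ((((psd_one_one_sub_bot hη0 hη1).smul (mul_nonneg hl hu)).add
    ((bsOut_posSemidef η PosSemidef.one hNB).smul hl)).add
    ((bsOut_posSemidef η hNA PosSemidef.one).smul hu)).add
    (bsOut_posSemidef η hNA hNB)

/-- The entropy photon-number inequality for one mode and all input states supported on the
span of the vacuum and the one-photon Fock state. -/
theorem epni_qubit {η : ℝ} (hη0 : 0 ≤ η) (hη1 : η ≤ 1) {A B : Matrix (Fin 2) (Fin 2) ℂ}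
    (hA : A.PosSemidef) (hB : B.PosSemidef) (hAtr : A.trace = 1) (hBtr : B.trace = 1)
    {a b c : ℝ} (ha : 0 ≤ a) (hb : 0 ≤ b) (hc : 0 ≤ c) (hSA : gfun a = vnEntropy A)
    (hSB : gfun b = vnEntropy B) (hSC : gfun c = vnEntropy (bsOut η A B)) :
    η * a + (1 - η) * b ≤ c := by
  obtain ⟨l, hl0, hl1, hEA, hNA⟩ := vnEntropy_two hA hAtr
  obtain ⟨u, hu0, hu1, hEB, hNB⟩ := vnEntropy_two hB hBtr
  have hA' : A = l • (1 : Matrix (Fin 2) (Fin 2) ℂ)
      + (A - l • (1 : Matrix (Fin 2) (Fin 2) ℂ)) := by abel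
  have hB' : B = u • (1 : Matrix (Fin 2) (Fin 2) ℂ)
      + (B - u • (1 : Matrix (Fin 2) (Fin 2) ℂ)) := by abel
  have hta : (A - l • (1 : Matrix (Fin 2) (Fin 2) ℂ)).trace = ((1 - 2 * l : ℝ) : ℂ) := by
    rw [trace_sub, hAtr, trace_smul, trace_one]
    simp
    ring
  have htb : (B - u • (1 : Matrix (Fin 2) (Fin 2) ℂ)).trace = ((1 - 2 * u : ℝ) : ℂ) := by
    rw [trace_sub, hBtr, trace_smul, trace_one]
    simp
    ring
  have hup := bsOut_upper hη0 hη1 hl0 hu0 hNA hNB hta htb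
  have hlow := bsOut_lower hη0 hη1 hl0 hu0 hNA hNB
  rw [← hA', ← hB'] at hup hlow
  have hC : (bsOut η A B).PosSemidef := bsOut_posSemidef η hA hB
  have hCh := hC.1
  have e_le : ∀ i, hCh.eigenvalues i ≤ out0 l u η := eigenvalues_le_of_psd hCh hup
  have le_e : ∀ i, out2 l u η ≤ hCh.eigenvalues i := le_eigenvalues_of_psd hCh hlow
  have hsum : hCh.eigenvalues 0 + hCh.eigenvalues 1 + hCh.eigenvalues 2 = 1 := by
    have h1 := hCh.trace_eq_sum_eigenvalues
    rw [bsOut_trace hη0 hη1, hAtr, hBtr, Fin.sum_univ_three] at h1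
    have h2 : ((1 : ℝ) : ℂ) = ((hCh.eigenvalues 0 + hCh.eigenvalues 1 + hCh.eigenvalues 2 : ℝ) : ℂ) := by
      push_cast
      simpa using h1
    exact (Complex.ofReal_injective h2).symm
  have hS : vnEntropy (bsOut η A B) = Real.negMulLog (hCh.eigenvalues 0)
      + Real.negMulLog (hCh.eigenvalues 1) + Real.negMulLog (hCh.eigenvalues 2) := by
    unfold vnEntropy
    rw [dif_pos hCh, Fin.sum_univ_three]
  have hR : out0 l u η + out1 l u η + out2 l u η = 1 := by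
    unfold out0 out1 out2; ring
  have hl1' : l ≤ 1 := by linarith
  have hu1' : u ≤ 1 := by linarith
  have h1l : 0 ≤ 1 - l := by linarith
  have h1u : 0 ≤ 1 - u := by linarith
  have h1η : 0 ≤ 1 - η := by linarith
  have hR2 : 0 ≤ out2 l u η := by unfold out2; positivity
  have hR1 : 0 ≤ out1 l u η := by unfold out1; positivity
  have hR0 : 0 ≤ out0 l u η := by unfold out0; positivity
  have hmaj := negMulLog_three hR2 hR1 (le_e 0) (e_le 0) (le_e 1) (e_le 1) (le_e 2) (e_le 2)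
    (by rw [hsum]; linarith)
  set h := Real.negMulLog (out0 l u η) + Real.negMulLog (out1 l u η)
    + Real.negMulLog (out2 l u η) with hh
  have hh0 : 0 ≤ h := by
    have e0 := Real.negMulLog_nonneg hR0 (by linarith)
    have e1 := Real.negMulLog_nonneg hR1 (by linarith)
    have e2 := Real.negMulLog_nonneg hR2 (by linarith)
    linarith
  have hc' : 0 ≤ Ginv h := Ginv_nonneg hh0
  have hfock := epni_fock01 hl0 hl1' hu0 hu1' hη0 hη1 ha hb hc' (hSA.trans hEA) (hSB.trans hEB)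
    (gfun_Ginv hh0)
  have hcc : Ginv h ≤ c := by
    apply le_of_gfun_le hc' hc
    rw [gfun_Ginv hh0, hSC, hS]
    linarith
  linarith

/-- The entropy of a density matrix is nonnegative. -/
lemma vnEntropy_nonneg {n : Type} [Fintype n] [DecidableEq n] {M : Matrix n n ℂ}
    (hM : M.PosSemidef) (htr : M.trace = 1) : 0 ≤ vnEntropy M := by
  unfold vnEntropy
  rw [dif_pos hM.1]
  have hsum : ∑ i, hM.1.eigenvalues i = 1 := by
    have h1 := hM.1.trace_eq_sum_eigenvalues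
    rw [htr] at h1
    have h2 : ((1 : ℝ) : ℂ) = ((∑ i, hM.1.eigenvalues i : ℝ) : ℂ) := by
      push_cast
      simpa using h1
    exact (Complex.ofReal_injective h2).symm
  refine Finset.sum_nonneg fun i _ => Real.negMulLog_nonneg (hM.eigenvalues_nonneg i) ?_
  calc hM.1.eigenvalues i ≤ ∑ j, hM.1.eigenvalues j :=
        Finset.single_le_sum (fun j _ => hM.eigenvalues_nonneg j) (Finset.mem_univ i)
    _ = 1 := hsum

/-- The entropy photon number of a density matrix exists. -/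
lemma exists_gfun_eq_vnEntropy {n : Type} [Fintype n] [DecidableEq n] {M : Matrix n n ℂ}
    (hM : M.PosSemidef) (htr : M.trace = 1) : ∃ t : ℝ, 0 ≤ t ∧ gfun t = vnEntropy M :=
  ⟨Ginv (vnEntropy M), Ginv_nonneg (vnEntropy_nonneg hM htr),
    gfun_Ginv (vnEntropy_nonneg hM htr)⟩

end Vale.Agent.Lib.P369
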