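import Mathlib
import Vale.Agent.Lib.P369.DefsQN
import Vale.Agent.Lib.P369.QOut

/-!
# The output of inputs diagonal in the product Fock basis
-/

namespace Vale.Agent.Lib.P369
open Matrix
open scoped ComplexOrder

lemma n2_one {η : ℝ} (hη0 : 0 ≤ η) (hη1 : η ≤ 1) (j k : Fin 2) (m m' : Fin 3) :
    ∑ l : Fin 3, bsIso η (m, l) (j, k) * star (bsIso η (m', l) (j, k))
      = if m = m' then ((bsK η j k m : ℝ) : ℂ) else 0 := by
  have h1 : (0 : ℝ) ≤ 1 - η := sub_nonneg.2 hη1
  have h2 : (0 : ℝ) ≤ 2 * η * (1 - η) := by positivity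
  have e1 := sqrt_sq_cast hη0
  have e2 := sqrt_sq_cast h1
  have e3 := sqrt_sq_cast h2
  push_cast at e1 e2 e3
  fin_cases j <;> fin_cases k <;> fin_cases m <;> fin_cases m' <;>
    simp [bsIso, bsAmp, bsK, Fin.sum_univ_three, map_ofNat] <;>
    first
      | linear_combination e1
      | linear_combination e2
      | linear_combination e3
      | ring

lemma n2_prod {η : ℝ} (hη0 : 0 ≤ η) (hη1 : η ≤ 1) (n : ℕ) (j k : Fin n → Fin 2)
    (m m' : Fin n → Fin 3) :
    ∑ l : Fin n → Fin 3, bsIsoN η n (m, l) (j, k) * star (bsIsoN η n (m', l) (j, k))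
      = if m = m' then ((∏ i, bsK η (j i) (k i) (m i) : ℝ) : ℂ) else 0 := by
  have h1 : ∀ l : Fin n → Fin 3, bsIsoN η n (m, l) (j, k) * star (bsIsoN η n (m', l) (j, k))
      = ∏ i, (bsIso η (m i, l i) (j i, k i) * star (bsIso η (m' i, l i) (j i, k i))) := by
    intro l
    simp only [bsIsoN, star_prod, Finset.prod_mul_distrib]
  rw [Finset.sum_congr rfl (fun l _ => h1 l)]
  rw [← Fintype.prod_sum
    (fun i (l : Fin 3) => bsIso η (m i, l) (j i, k i) * star (bsIso η (m' i, l) (j i, k i)))]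
  rw [Finset.prod_congr rfl (fun i _ => n2_one hη0 hη1 (j i) (k i) (m i) (m' i))]
  by_cases hmm : m = m'
  · subst hmm
    simp
  · rw [if_neg hmm]
    obtain ⟨i, hi⟩ : ∃ i, m i ≠ m' i := by
      by_contra hcon
      push Not at hcon
      exact hmm (funext hcon)
    exact Finset.prod_eq_zero (Finset.mem_univ i) (if_neg hi)

lemma bsOutN_diagonal {η : ℝ} (hη0 : 0 ≤ η) (hη1 : η ≤ 1) (n : ℕ)
    (P Q : (Fin n → Fin 2) → ℝ) :
    bsOutN η n (Matrix.diagonal fun x => (P x : ℂ)) (Matrix.diagonal fun y => (Q y : ℂ))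
      = Matrix.diagonal fun z => (modeOut η n P Q z : ℂ) := by
  ext m m'
  have hentry : bsOutN η n (Matrix.diagonal fun x => (P x : ℂ))
      (Matrix.diagonal fun y => (Q y : ℂ)) m m'
      = ∑ l : Fin n → Fin 3, ∑ j : Fin n → Fin 2, ∑ k : Fin n → Fin 2,
          ((P j : ℂ) * (Q k : ℂ)) *
            (bsIsoN η n (m, l) (j, k) * star (bsIsoN η n (m', l) (j, k))) := by
    unfold bsOutN
    rw [Matrix.diagonal_kronecker_diagonal]
    refine Finset.sum_congr rfl fun l _ => ?_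
    rw [Matrix.mul_apply, Fintype.sum_prod_type]
    refine Finset.sum_congr rfl fun j _ => Finset.sum_congr rfl fun k _ => ?_
    rw [Matrix.mul_diagonal, Matrix.conjTranspose_apply]
    ring
  rw [hentry, Finset.sum_comm]
  have hswap : ∀ j : Fin n → Fin 2, ∑ l : Fin n → Fin 3, ∑ k : Fin n → Fin 2,
      ((P j : ℂ) * (Q k : ℂ)) *
        (bsIsoN η n (m, l) (j, k) * star (bsIsoN η n (m', l) (j, k)))
      = ∑ k : Fin n → Fin 2, ((P j : ℂ) * (Q k : ℂ)) *
        (if m = m' then ((∏ i, bsK η (j i) (k i) (m i) : ℝ) : ℂ) else 0) := by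
    intro j
    rw [Finset.sum_comm]
    refine Finset.sum_congr rfl fun k _ => ?_
    rw [← Finset.mul_sum, n2_prod hη0 hη1]
  rw [Finset.sum_congr rfl (fun j _ => hswap j), Matrix.diagonal_apply]
  by_cases hmm : m = m'
  · subst hmm
    simp only [if_true, modeOut]
    push_cast
    rfl
  · simp [hmm]

end Vale.Agent.Lib.P369
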