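import Mathlib
import Vale.Agent.Lib.P369.DefsQ

/-!
# The entropy of a unitarily diagonalised matrix
-/

namespace Vale.Agent.Lib.P369
open Matrix
open scoped ComplexOrder

lemma n3_herm {n : Type} [Fintype n] [DecidableEq n] (U : Matrix n n ℂ) (d : n → ℝ) :
    (U * Matrix.diagonal (fun i => (d i : ℂ)) * U.conjTranspose).IsHermitian := by
  have hstar : star (fun i => (d i : ℂ)) = fun i => (d i : ℂ) := by
    funext i
    simp
  unfold Matrix.IsHermitian
  rw [conjTranspose_mul, conjTranspose_mul, conjTranspose_conjTranspose, diagonal_conjTranspose,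
    Matrix.mul_assoc, hstar]

lemma n3_roots {n : Type} [Fintype n] [DecidableEq n] (d : n → ℝ) :
    (Matrix.diagonal (fun i => (d i : ℂ))).charpoly.roots
      = Multiset.map (fun i => (d i : ℂ)) Finset.univ.val := by
  rw [Matrix.charpoly_diagonal, Polynomial.roots_prod]
  · simp
  · simp [Finset.prod_ne_zero_iff, Polynomial.X_sub_C_ne_zero]

lemma vnEntropy_unitary_diag {n : Type} [Fintype n] [DecidableEq n] (U : Matrix n n ℂ)
    (d : n → ℝ) (hU : U.conjTranspose * U = 1) :
    vnEntropy (U * Matrix.diagonal (fun i => (d i : ℂ)) * U.conjTranspose)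
      = ∑ i, Real.negMulLog (d i) := by
  have hM := n3_herm U d
  unfold vnEntropy
  rw [dif_pos hM]
  have hchar : (U * Matrix.diagonal (fun i => (d i : ℂ)) * U.conjTranspose).charpoly
      = (Matrix.diagonal (fun i => (d i : ℂ))).charpoly := by
    rw [Matrix.charpoly_mul_comm, ← Matrix.mul_assoc, hU, Matrix.one_mul]
  have hroots := hM.roots_charpoly_eq_eigenvalues
  rw [hchar, n3_roots] at hroots
  have h2 := congrArg (Multiset.map Complex.re) hroots
  rw [Multiset.map_map, Multiset.map_map] at h2
  have h3 : Multiset.map (fun i => d i) Finset.univ.val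
      = Multiset.map (fun i => hM.eigenvalues i) Finset.univ.val := by
    have e1 : (Complex.re ∘ fun i => (d i : ℂ)) = fun i => d i := by
      funext i
      simp
    have e2 : (Complex.re ∘ (RCLike.ofReal ∘ hM.eigenvalues) : n → ℝ) = fun i => hM.eigenvalues i := by
      funext i
      simp
    rw [e1, e2] at h2
    exact h2
  have h4 := congrArg (fun s => (Multiset.map Real.negMulLog s).sum) h3
  simp only [Multiset.map_map] at h4
  rw [Finset.sum_eq_multiset_sum, Finset.sum_eq_multiset_sum]
  exact h4.symm

lemma vnEntropy_diagonal {n : Type} [Fintype n] [DecidableEq n] (d : n → ℝ) :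
    vnEntropy (Matrix.diagonal fun i => (d i : ℂ)) = ∑ i, Real.negMulLog (d i) := by
  have h := vnEntropy_unitary_diag (1 : Matrix n n ℂ) d (by simp)
  simpa using h

end Vale.Agent.Lib.P369
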