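import Mathlib
import Vale.Agent.Lib.P369.DefsQN
import Vale.Agent.Lib.P369.QIso
import Vale.Agent.Lib.P369.QTools

/-!
# The beam splitter on many modes: isometry, positivity and trace of the output
-/

namespace Vale.Agent.Lib.P369
open Matrix
open scoped ComplexOrder

/-- Sum over pairs of configurations of a product over the modes: exchange of sum and
product. -/
lemma n1_sum_pair_prod {n : ℕ} {α β : Type} [Fintype α] [Fintype β] [DecidableEq α]
    [DecidableEq β] (g : Fin n → α × β → ℂ) :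
    ∑ ml : (Fin n → α) × (Fin n → β), ∏ i, g i (ml.1 i, ml.2 i) = ∏ i, ∑ ab : α × β, g i ab := by
  rw [Fintype.prod_sum]
  exact (Fintype.sum_equiv (Equiv.arrowProdEquivProdArrow (Fin n) (fun _ => α) (fun _ => β))
    (fun x : Fin n → α × β => ∏ i, g i (x i))
    (fun ml : (Fin n → α) × (Fin n → β) => ∏ i, g i (ml.1 i, ml.2 i)) (fun x => rfl)).symm

lemma bsIsoN_isometry {η : ℝ} (hη0 : 0 ≤ η) (hη1 : η ≤ 1) (n : ℕ) :
    (bsIsoN η n).conjTranspose * bsIsoN η n = 1 := by
  ext ⟨j, k⟩ ⟨j', k'⟩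
  rw [Matrix.mul_apply]
  have h1 : ∀ ml : (Fin n → Fin 3) × (Fin n → Fin 3),
      (bsIsoN η n).conjTranspose (j, k) ml * bsIsoN η n ml (j', k')
        = ∏ i, (star (bsIso η (ml.1 i, ml.2 i) (j i, k i))
            * bsIso η (ml.1 i, ml.2 i) (j' i, k' i)) := by
    intro ml
    rw [Matrix.conjTranspose_apply]
    unfold bsIsoN
    simp only
    rw [star_prod, ← Finset.prod_mul_distrib]
  simp_rw [h1]
  rw [n1_sum_pair_prod (fun i ab => star (bsIso η ab (j i, k i)) * bsIso η ab (j' i, k' i))]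
  have h2 : ∀ i : Fin n, ∑ ab : Fin 3 × Fin 3,
      star (bsIso η ab (j i, k i)) * bsIso η ab (j' i, k' i)
        = if (j i, k i) = (j' i, k' i) then 1 else 0 := by
    intro i
    have h := congrFun (congrFun (bsIso_isometry hη0 hη1) (j i, k i)) (j' i, k' i)
    rw [Matrix.mul_apply, Matrix.one_apply] at h
    rw [← h]
    refine Finset.sum_congr rfl (fun ab _ => ?_)
    rw [Matrix.conjTranspose_apply]
  simp_rw [h2]
  rw [Finset.prod_ite_zero, Finset.prod_const_one, Matrix.one_apply]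
  congr 1
  apply propext
  constructor
  · intro h
    have hj : j = j' := funext (fun i => (Prod.mk.inj (h i (Finset.mem_univ i))).1)
    have hk : k = k' := funext (fun i => (Prod.mk.inj (h i (Finset.mem_univ i))).2)
    rw [hj, hk]
  · intro h i _
    have hj : j = j' := (Prod.mk.inj h).1
    have hk : k = k' := (Prod.mk.inj h).2
    rw [hj, hk]

lemma bsOutN_posSemidef (η : ℝ) (n : ℕ) {A B : Matrix (Fin n → Fin 2) (Fin n → Fin 2) ℂ}
    (hA : A.PosSemidef) (hB : B.PosSemidef) : (bsOutN η n A B).PosSemidef := by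
  have h1 := (hA.kronecker hB).mul_mul_conjTranspose_same (bsIsoN η n)
  exact psd_ptrace h1

lemma bsOutN_trace {η : ℝ} (hη0 : 0 ≤ η) (hη1 : η ≤ 1) (n : ℕ)
    (A B : Matrix (Fin n → Fin 2) (Fin n → Fin 2) ℂ) :
    (bsOutN η n A B).trace = A.trace * B.trace := by
  have h1 : (bsOutN η n A B).trace
      = (bsIsoN η n * (kroneckerMap (fun x1 x2 => x1 * x2) A B)
          * (bsIsoN η n).conjTranspose).trace := by
    unfold Matrix.trace
    rw [Fintype.sum_prod_type]
    rfl
  rw [h1, Matrix.trace_mul_comm, ← Matrix.mul_assoc, bsIsoN_isometry hη0 hη1, Matrix.one_mul,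
    Matrix.trace_kronecker]

end Vale.Agent.Lib.P369
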