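import Mathlib
import Vale.Agent.Lib.P369.DefsQN
import Vale.Agent.Lib.P369.QOut

/-!
# The output of product inputs is the tensor product of the one-mode outputs
-/

namespace Vale.Agent.Lib.P369
open Matrix
open scoped ComplexOrder

lemma n5_exchange {β : Type} [Fintype β] [DecidableEq β] {n : ℕ} (f : Fin n → β → ℂ) :
    ∑ x : Fin n → β, ∏ i, f i (x i) = ∏ i, ∑ b, f i b :=
  (Fintype.prod_sum f).symm

lemma n5_exchange5 {n : ℕ} (F : Fin n → Fin 3 → Fin 2 → Fin 2 → Fin 2 → Fin 2 → ℂ) :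
    ∑ l : Fin n → Fin 3, ∑ j' : Fin n → Fin 2, ∑ k' : Fin n → Fin 2, ∑ j : Fin n → Fin 2,
      ∑ k : Fin n → Fin 2, ∏ i, F i (l i) (j' i) (k' i) (j i) (k i)
      = ∏ i, ∑ l : Fin 3, ∑ j' : Fin 2, ∑ k' : Fin 2, ∑ j : Fin 2, ∑ k : Fin 2, F i l j' k' j k := by
  have h1 : ∀ (l : Fin n → Fin 3) (j' k' j : Fin n → Fin 2),
      ∑ k : Fin n → Fin 2, ∏ i, F i (l i) (j' i) (k' i) (j i) (k i)
        = ∏ i, ∑ c, F i (l i) (j' i) (k' i) (j i) c :=
    fun l j' k' j => n5_exchange (fun i c => F i (l i) (j' i) (k' i) (j i) c)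
  have h2 : ∀ (l : Fin n → Fin 3) (j' k' : Fin n → Fin 2),
      ∑ j : Fin n → Fin 2, ∏ i, ∑ c, F i (l i) (j' i) (k' i) (j i) c
        = ∏ i, ∑ b, ∑ c, F i (l i) (j' i) (k' i) b c :=
    fun l j' k' => n5_exchange (fun i b => ∑ c, F i (l i) (j' i) (k' i) b c)
  have h3 : ∀ (l : Fin n → Fin 3) (j' : Fin n → Fin 2),
      ∑ k' : Fin n → Fin 2, ∏ i, ∑ b, ∑ c, F i (l i) (j' i) (k' i) b c
        = ∏ i, ∑ a, ∑ b, ∑ c, F i (l i) (j' i) a b c :=
    fun l j' => n5_exchange (fun i a => ∑ b, ∑ c, F i (l i) (j' i) a b c)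
  have h4 : ∀ (l : Fin n → Fin 3),
      ∑ j' : Fin n → Fin 2, ∏ i, ∑ a, ∑ b, ∑ c, F i (l i) (j' i) a b c
        = ∏ i, ∑ d, ∑ a, ∑ b, ∑ c, F i (l i) d a b c :=
    fun l => n5_exchange (fun i d => ∑ a, ∑ b, ∑ c, F i (l i) d a b c)
  have h5 : ∑ l : Fin n → Fin 3, ∏ i, ∑ d, ∑ a, ∑ b, ∑ c, F i (l i) d a b c
        = ∏ i, ∑ e, ∑ d, ∑ a, ∑ b, ∑ c, F i e d a b c :=
    n5_exchange (fun i e => ∑ d, ∑ a, ∑ b, ∑ c, F i e d a b c)
  calc ∑ l : Fin n → Fin 3, ∑ j' : Fin n → Fin 2, ∑ k' : Fin n → Fin 2, ∑ j : Fin n → Fin 2,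
        ∑ k : Fin n → Fin 2, ∏ i, F i (l i) (j' i) (k' i) (j i) (k i)
      = ∑ l : Fin n → Fin 3, ∑ j' : Fin n → Fin 2, ∑ k' : Fin n → Fin 2, ∑ j : Fin n → Fin 2,
          ∏ i, ∑ c, F i (l i) (j' i) (k' i) (j i) c := by
        refine Finset.sum_congr rfl fun l _ => Finset.sum_congr rfl fun j' _ =>
          Finset.sum_congr rfl fun k' _ => Finset.sum_congr rfl fun j _ => h1 l j' k' j
    _ = ∑ l : Fin n → Fin 3, ∑ j' : Fin n → Fin 2, ∑ k' : Fin n → Fin 2,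
          ∏ i, ∑ b, ∑ c, F i (l i) (j' i) (k' i) b c := by
        refine Finset.sum_congr rfl fun l _ => Finset.sum_congr rfl fun j' _ =>
          Finset.sum_congr rfl fun k' _ => h2 l j' k'
    _ = ∑ l : Fin n → Fin 3, ∑ j' : Fin n → Fin 2,
          ∏ i, ∑ a, ∑ b, ∑ c, F i (l i) (j' i) a b c := by
        refine Finset.sum_congr rfl fun l _ => Finset.sum_congr rfl fun j' _ => h3 l j'
    _ = ∑ l : Fin n → Fin 3, ∏ i, ∑ d, ∑ a, ∑ b, ∑ c, F i (l i) d a b c := by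
        refine Finset.sum_congr rfl fun l _ => h4 l
    _ = ∏ i, ∑ e, ∑ d, ∑ a, ∑ b, ∑ c, F i e d a b c := h5

lemma bsOutN_tensorN (η : ℝ) (n : ℕ) (A B : Fin n → Matrix (Fin 2) (Fin 2) ℂ) :
    bsOutN η n (tensorN A) (tensorN B) = tensorN (fun i => bsOut η (A i) (B i)) := by
  ext m m'
  have hR : tensorN (fun i => bsOut η (A i) (B i)) m m'
      = ∏ i, ∑ l : Fin 3, ∑ j' : Fin 2, ∑ k' : Fin 2, ∑ j : Fin 2, ∑ k : Fin 2,
          bsIso η (m i, l) (j, k) * (A i j j' * B i k k') * star (bsIso η (m' i, l) (j', k')) := by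
    unfold tensorN
    exact Finset.prod_congr rfl fun i _ => bsOut_apply η (A i) (B i) (m i) (m' i)
  rw [hR, ← n5_exchange5]
  unfold bsOutN
  simp only [Matrix.mul_apply, Matrix.conjTranspose_apply, Matrix.kroneckerMap_apply,
    Fintype.sum_prod_type, Finset.sum_mul]
  refine Finset.sum_congr rfl fun l _ => Finset.sum_congr rfl fun j' _ =>
    Finset.sum_congr rfl fun k' _ => Finset.sum_congr rfl fun j _ => Finset.sum_congr rfl fun k _ => ?_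
  unfold bsIsoN tensorN
  simp only [star_prod, ← Finset.prod_mul_distrib]

end Vale.Agent.Lib.P369
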