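import Mathlib
import Vale.Agent.Lib.P369.DefsQN
import Vale.Agent.Lib.P369.QNEntropy

/-!
# Tensor products of positive semidefinite matrices: positivity, trace, entropy
-/

namespace Vale.Agent.Lib.P369
open Matrix
open scoped ComplexOrder

lemma n4_mul {α : Type} [Fintype α] [DecidableEq α] {n : ℕ} (A B : Fin n → Matrix α α ℂ) :
    tensorN (fun i => A i * B i) = tensorN A * tensorN B := by
  ext x x'
  simp only [tensorN, Matrix.mul_apply]
  rw [Fintype.prod_sum]
  refine Finset.sum_congr rfl fun y _ => ?_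
  rw [Finset.prod_mul_distrib]

lemma n4_conjTranspose {α : Type} {n : ℕ} (A : Fin n → Matrix α α ℂ) :
    (tensorN A).conjTranspose = tensorN (fun i => (A i).conjTranspose) := by
  ext x x'
  simp only [tensorN, conjTranspose_apply, star_prod]

lemma n4_one {α : Type} [DecidableEq α] {n : ℕ} :
    tensorN (fun _ : Fin n => (1 : Matrix α α ℂ)) = 1 := by
  ext x x'
  simp only [tensorN, Matrix.one_apply]
  rw [Fintype.prod_ite_zero]
  simp only [Finset.prod_const_one, funext_iff]

lemma n4_diagonal {α : Type} [DecidableEq α] {n : ℕ} (d : Fin n → α → ℂ) :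
    tensorN (fun i => Matrix.diagonal (d i)) = Matrix.diagonal (fun x => ∏ i, d i (x i)) := by
  ext x x'
  simp only [tensorN, Matrix.diagonal_apply]
  rw [Fintype.prod_ite_zero]
  by_cases hxx : x = x'
  · subst hxx
    simp
  · have hne : ¬ ∀ i, x i = x' i := fun h => hxx (funext h)
    rw [if_neg hne, if_neg hxx]

lemma tensorN_trace {α : Type} [Fintype α] {n : ℕ} (M : Fin n → Matrix α α ℂ) :
    (tensorN M).trace = ∏ i, (M i).trace := by
  classical
  simp only [Matrix.trace, Matrix.diag_apply, tensorN]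
  rw [Fintype.prod_sum]

/-- spectral data of a positive semidefinite matrix -/
lemma n4_spectral {α : Type} [Fintype α] [DecidableEq α] {M : Matrix α α ℂ}
    (h : M.PosSemidef) :
    ∃ (U : Matrix α α ℂ) (e : α → ℝ), U.conjTranspose * U = 1 ∧ (∀ a, 0 ≤ e a) ∧
      M = U * Matrix.diagonal (fun a => (e a : ℂ)) * U.conjTranspose ∧
      M.trace = ∑ a, (e a : ℂ) ∧ vnEntropy M = ∑ a, Real.negMulLog (e a) := by
  have hH := h.isHermitian
  refine ⟨(hH.eigenvectorUnitary : Matrix α α ℂ), hH.eigenvalues, ?_, h.eigenvalues_nonneg,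
    ?_, ?_, ?_⟩
  · have h1 := Unitary.coe_star_mul_self hH.eigenvectorUnitary
    rwa [star_eq_conjTranspose] at h1
  · have h1 := hH.spectral_theorem
    rw [Unitary.conjStarAlgAut_apply] at h1
    exact h1
  · exact hH.trace_eq_sum_eigenvalues
  · unfold vnEntropy
    rw [dif_pos hH]

/-- the entropy of a product distribution is the sum of the entropies -/
lemma n4_prod_entropy {α : Type} [Fintype α] [DecidableEq α] :
    ∀ (n : ℕ) (p : Fin n → α → ℝ), (∀ i, ∑ a, p i a = 1) →
      ∑ x : Fin n → α, Real.negMulLog (∏ i, p i (x i)) = ∑ i, ∑ a, Real.negMulLog (p i a) := by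
  intro n
  induction n with
  | zero =>
    intro p _
    simp
  | succ n ih =>
    intro p hp
    have hsum1 : ∑ y : Fin n → α, ∏ i, p i.succ (y i) = 1 := by
      rw [← Fintype.prod_sum]
      exact Finset.prod_eq_one fun i _ => hp i.succ
    rw [← Equiv.sum_comp (Fin.consEquiv fun _ : Fin (n + 1) => α), Fintype.sum_prod_type]
    have hterm : ∀ (a : α) (y : Fin n → α),
        Real.negMulLog (∏ i, p i ((Fin.consEquiv fun _ : Fin (n + 1) => α) (a, y) i))
          = (∏ i, p i.succ (y i)) * Real.negMulLog (p 0 a)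
            + p 0 a * Real.negMulLog (∏ i, p i.succ (y i)) := by
      intro a y
      rw [Fin.prod_univ_succ]
      have e1 : (Fin.consEquiv fun _ : Fin (n + 1) => α) (a, y) 0 = a := rfl
      have e2 : ∀ i : Fin n, (Fin.consEquiv fun _ : Fin (n + 1) => α) (a, y) i.succ = y i :=
        fun i => rfl
      simp only [e1, e2]
      rw [Real.negMulLog_mul]
    simp only [hterm]
    simp only [Finset.sum_add_distrib]
    have h1 : ∑ a : α, ∑ y : Fin n → α, (∏ i, p i.succ (y i)) * Real.negMulLog (p 0 a)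
        = ∑ a, Real.negMulLog (p 0 a) := by
      refine Finset.sum_congr rfl fun a _ => ?_
      rw [← Finset.sum_mul, hsum1, one_mul]
    have h2 : ∑ a : α, ∑ y : Fin n → α, p 0 a * Real.negMulLog (∏ i, p i.succ (y i))
        = ∑ i : Fin n, ∑ a, Real.negMulLog (p i.succ a) := by
      rw [← ih (fun i => p i.succ) (fun i => hp i.succ)]
      simp only [← Finset.mul_sum]
      rw [← Finset.sum_mul, hp 0, one_mul]
    rw [h1, h2, Fin.sum_univ_succ]

/-- joint diagonalisation of a tensor product of positive semidefinite matrices -/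
lemma n4_decomp {α : Type} [Fintype α] [DecidableEq α] {n : ℕ}
    {M : Fin n → Matrix α α ℂ} (h : ∀ i, (M i).PosSemidef) :
    ∃ (U : Matrix (Fin n → α) (Fin n → α) ℂ) (e : Fin n → α → ℝ),
      U.conjTranspose * U = 1 ∧ (∀ i a, 0 ≤ e i a) ∧
      tensorN M = U * Matrix.diagonal (fun x => ((∏ i, e i (x i) : ℝ) : ℂ)) * U.conjTranspose ∧
      (∀ i, (M i).trace = ∑ a, (e i a : ℂ)) ∧
      (∀ i, vnEntropy (M i) = ∑ a, Real.negMulLog (e i a)) := by
  choose U e hU he hM htr hent using fun i => n4_spectral (h i)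
  refine ⟨tensorN U, e, ?_, he, ?_, htr, hent⟩
  · rw [n4_conjTranspose, ← n4_mul]
    simp only [hU]
    exact n4_one
  · have h1 : tensorN M
        = tensorN (fun i => U i * Matrix.diagonal (fun a => (e i a : ℂ)) * (U i).conjTranspose) := by
      congr 1
      funext i
      exact hM i
    rw [h1, n4_mul, n4_mul, n4_diagonal, n4_conjTranspose]
    congr 2
    congr 1
    funext x
    push_cast
    rfl

lemma tensorN_posSemidef {α : Type} [Fintype α] [DecidableEq α] {n : ℕ}
    {M : Fin n → Matrix α α ℂ} (h : ∀ i, (M i).PosSemidef) : (tensorN M).PosSemidef := by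
  obtain ⟨U, e, hU, he, hM, -, -⟩ := n4_decomp h
  rw [hM]
  refine Matrix.PosSemidef.mul_mul_conjTranspose_same (Matrix.PosSemidef.diagonal ?_) U
  intro x
  have hx : 0 ≤ ∏ i, e i (x i) := Finset.prod_nonneg fun i _ => he i (x i)
  show (0 : ℂ) ≤ ((∏ i, e i (x i) : ℝ) : ℂ)
  exact_mod_cast hx

lemma vnEntropy_tensorN {α : Type} [Fintype α] [DecidableEq α] {n : ℕ}
    {M : Fin n → Matrix α α ℂ} (h : ∀ i, (M i).PosSemidef) (htr : ∀ i, (M i).trace = 1) :
    vnEntropy (tensorN M) = ∑ i, vnEntropy (M i) := by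
  obtain ⟨U, e, hU, he, hM, htr', hent⟩ := n4_decomp h
  have hsum : ∀ i, ∑ a, e i a = 1 := by
    intro i
    have h1 := htr' i
    rw [htr i] at h1
    exact_mod_cast h1.symm
  rw [hM, vnEntropy_unitary_diag U _ hU, n4_prod_entropy n e hsum]
  exact Finset.sum_congr rfl fun i _ => (hent i).symm

end Vale.Agent.Lib.P369
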