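import Mathlib
import Vale.Agent.Lib.P369.QMain
import Vale.Agent.Lib.P369.QNIso
import Vale.Agent.Lib.P369.QNDiag
import Vale.Agent.Lib.P369.QNEntropy
import Vale.Agent.Lib.P369.QNTensor
import Vale.Agent.Lib.P369.QNProd
import Vale.Agent.Lib.P369.Modes
import Vale.Agent.Lib.P369.Convex

/-!
# The entropy photon-number inequality for many modes with at most one photon per mode:
inputs diagonal in the product Fock basis, and product inputs
-/

namespace Vale.Agent.Lib.P369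

open Matrix
open scoped ComplexOrder

/-- The one-mode inequality in terms of `F`. -/
lemma Ffun_le_vnEntropy_bsOut {η : ℝ} (hη0 : 0 ≤ η) (hη1 : η ≤ 1)
    {A B : Matrix (Fin 2) (Fin 2) ℂ} (hA : A.PosSemidef) (hB : B.PosSemidef)
    (hAtr : A.trace = 1) (hBtr : B.trace = 1) :
    Ffun η (vnEntropy A) (vnEntropy B) ≤ vnEntropy (bsOut η A B) := by
  have hC : (bsOut η A B).PosSemidef := bsOut_posSemidef η hA hB
  have hCtr : (bsOut η A B).trace = 1 := by rw [bsOut_trace hη0 hη1, hAtr, hBtr, one_mul]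
  have hSA := vnEntropy_nonneg hA hAtr
  have hSB := vnEntropy_nonneg hB hBtr
  have hSC := vnEntropy_nonneg hC hCtr
  have h := epni_qubit hη0 hη1 hA hB hAtr hBtr (Ginv_nonneg hSA) (Ginv_nonneg hSB)
    (Ginv_nonneg hSC) (gfun_Ginv hSA) (gfun_Ginv hSB) (gfun_Ginv hSC)
  have hnn : 0 ≤ η * Ginv (vnEntropy A) + (1 - η) * Ginv (vnEntropy B) :=
    add_nonneg (mul_nonneg hη0 (Ginv_nonneg hSA))
      (mul_nonneg (sub_nonneg.2 hη1) (Ginv_nonneg hSB))
  have h2 := gfun_le_gfun hnn h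
  rw [gfun_Ginv hSC] at h2
  exact h2

/-- Jensen's inequality for `F` with equal weights. -/
lemma Ffun_jensen_avg {η : ℝ} (hη0 : 0 ≤ η) (hη1 : η ≤ 1) {n : ℕ} (hn : 1 ≤ n)
    {f g : Fin n → ℝ} (hf : ∀ i, 0 ≤ f i) (hg : ∀ i, 0 ≤ g i) :
    (n : ℝ) * Ffun η ((∑ i, f i) / n) ((∑ i, g i) / n) ≤ ∑ i, Ffun η (f i) (g i) := by
  have hn0 : (0 : ℝ) < n := by exact_mod_cast hn
  have h := (Ffun_convexOn hη0 hη1).map_sum_le (t := (Finset.univ : Finset (Fin n)))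
    (w := fun _ => (1 : ℝ) / n) (p := fun i => (f i, g i))
    (fun i _ => by positivity)
    (by rw [Finset.sum_const, Finset.card_univ, Fintype.card_fin, nsmul_eq_mul]; field_simp)
    (fun i _ => ⟨hf i, hg i⟩)
  simp only [Prod.fst_sum, Prod.snd_sum, Prod.smul_fst, Prod.smul_snd, smul_eq_mul] at h
  have e1 : ∑ i, 1 / (n : ℝ) * f i = (∑ i, f i) / n := by
    rw [← Finset.mul_sum]; field_simp
  have e2 : ∑ i, 1 / (n : ℝ) * g i = (∑ i, g i) / n := by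
    rw [← Finset.mul_sum]; field_simp
  have e3 : ∑ i, 1 / (n : ℝ) * Ffun η (f i) (g i) = (∑ i, Ffun η (f i) (g i)) / n := by
    rw [← Finset.mul_sum]; field_simp
  rw [e1, e2, e3] at h
  rw [le_div_iff₀ hn0] at h
  linarith

/-- Inputs diagonal in the product Fock basis. -/
theorem epni_modes_diag {n : ℕ} (hn : 1 ≤ n) {η : ℝ} (hη0 : 0 ≤ η) (hη1 : η ≤ 1)
    {P Q : (Fin n → Fin 2) → ℝ}
    (hA : (Matrix.diagonal fun x => (P x : ℂ)).PosSemidef)
    (hB : (Matrix.diagonal fun y => (Q y : ℂ)).PosSemidef)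
    (hAtr : (Matrix.diagonal fun x => (P x : ℂ)).trace = 1)
    (hBtr : (Matrix.diagonal fun y => (Q y : ℂ)).trace = 1)
    {a b c : ℝ} (ha : 0 ≤ a) (hb : 0 ≤ b) (hc : 0 ≤ c)
    (hSA : (n : ℝ) * gfun a = vnEntropy (Matrix.diagonal fun x => (P x : ℂ)))
    (hSB : (n : ℝ) * gfun b = vnEntropy (Matrix.diagonal fun y => (Q y : ℂ)))
    (hSC : (n : ℝ) * gfun c = vnEntropy (bsOutN η n (Matrix.diagonal fun x => (P x : ℂ))
      (Matrix.diagonal fun y => (Q y : ℂ)))) :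
    η * a + (1 - η) * b ≤ c := by
  have hP0 : ∀ x, 0 ≤ P x := fun x => Complex.zero_le_real.1 (posSemidef_diagonal_iff.1 hA x)
  have hQ0 : ∀ y, 0 ≤ Q y := fun y => Complex.zero_le_real.1 (posSemidef_diagonal_iff.1 hB y)
  have hP1 : ∑ x, P x = 1 := by
    rw [Matrix.trace_diagonal] at hAtr
    exact_mod_cast hAtr
  have hQ1 : ∑ y, Q y = 1 := by
    rw [Matrix.trace_diagonal] at hBtr
    exact_mod_cast hBtr
  rw [vnEntropy_diagonal] at hSA hSB
  rw [bsOutN_diagonal hη0 hη1, vnEntropy_diagonal] at hSC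
  exact epni_fock_modes hn hη0 hη1 hP0 hP1 hQ0 hQ1 ha hb hc hSA hSB hSC

/-- Product inputs. -/
theorem epni_modes_prod {n : ℕ} (hn : 1 ≤ n) {η : ℝ} (hη0 : 0 ≤ η) (hη1 : η ≤ 1)
    {A B : Fin n → Matrix (Fin 2) (Fin 2) ℂ} (hA : ∀ i, (A i).PosSemidef)
    (hB : ∀ i, (B i).PosSemidef) (hAtr : ∀ i, (A i).trace = 1) (hBtr : ∀ i, (B i).trace = 1)
    {a b c : ℝ} (ha : 0 ≤ a) (hb : 0 ≤ b) (hc : 0 ≤ c)
    (hSA : (n : ℝ) * gfun a = vnEntropy (tensorN A))
    (hSB : (n : ℝ) * gfun b = vnEntropy (tensorN B))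
    (hSC : (n : ℝ) * gfun c = vnEntropy (bsOutN η n (tensorN A) (tensorN B))) :
    η * a + (1 - η) * b ≤ c := by
  have hn0 : (0 : ℝ) < n := by exact_mod_cast hn
  have hC : ∀ i, (bsOut η (A i) (B i)).PosSemidef := fun i => bsOut_posSemidef η (hA i) (hB i)
  have hCtr : ∀ i, (bsOut η (A i) (B i)).trace = 1 := fun i => by
    rw [bsOut_trace hη0 hη1, hAtr i, hBtr i, one_mul]
  rw [vnEntropy_tensorN hA hAtr] at hSA
  rw [vnEntropy_tensorN hB hBtr] at hSB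
  rw [bsOutN_tensorN, vnEntropy_tensorN hC hCtr] at hSC
  have h1 : ∑ i, Ffun η (vnEntropy (A i)) (vnEntropy (B i))
      ≤ ∑ i, vnEntropy (bsOut η (A i) (B i)) :=
    Finset.sum_le_sum fun i _ => Ffun_le_vnEntropy_bsOut hη0 hη1 (hA i) (hB i) (hAtr i) (hBtr i)
  have h2 := Ffun_jensen_avg hη0 hη1 hn (f := fun i => vnEntropy (A i))
    (g := fun i => vnEntropy (B i)) (fun i => vnEntropy_nonneg (hA i) (hAtr i))
    (fun i => vnEntropy_nonneg (hB i) (hBtr i))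
  rw [← hSA, ← hSB, ← hSC] at *
  have e1 : (n : ℝ) * gfun a / n = gfun a := by field_simp
  have e2 : (n : ℝ) * gfun b / n = gfun b := by field_simp
  rw [e1, e2] at h2
  have h3 : Ffun η (gfun a) (gfun b) ≤ gfun c := by
    have := h2.trans h1
    exact le_of_mul_le_mul_left this hn0
  unfold Ffun at h3
  rw [Ginv_gfun ha, Ginv_gfun hb] at h3
  have hnn : 0 ≤ η * a + (1 - η) * b :=
    add_nonneg (mul_nonneg hη0 ha) (mul_nonneg (sub_nonneg.2 hη1) hb)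
  exact le_of_gfun_le hnn hc h3

/-- The entropy photon number of an `n`-mode density matrix exists. -/
lemma exists_mul_gfun_eq_vnEntropy {ι : Type} [Fintype ι] [DecidableEq ι] {M : Matrix ι ι ℂ}
    (hM : M.PosSemidef) (htr : M.trace = 1) {n : ℕ} (hn : 1 ≤ n) :
    ∃ t : ℝ, 0 ≤ t ∧ (n : ℝ) * gfun t = vnEntropy M := by
  have hn0 : (0 : ℝ) < n := by exact_mod_cast hn
  have h0 : 0 ≤ vnEntropy M / n := div_nonneg (vnEntropy_nonneg hM htr) hn0.le
  refine ⟨Ginv (vnEntropy M / n), Ginv_nonneg h0, ?_⟩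
  rw [gfun_Ginv h0]
  field_simp

end Vale.Agent.Lib.P369
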